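import Mathlib

/-! Sum-of-squares identities giving a spectral gap (property (T)) for four elements of order 17
that pairwise generate groups of nilpotency class at most two. -/

namespace Crest.Agent.H3.KE

open Finset

section cone
variable {R : Type} [Ring R] [StarRing R] [Algebra ℂ R] [StarModule ℂ R]

/-- sums of hermitian squares -/
def Pos (a : R) : Prop := a ∈ AddSubmonoid.closure (Set.range fun b : R => star b * b)

theorem Pos.sq (b : R) : Pos (star b * b) := AddSubmonoid.subset_closure ⟨b, rfl⟩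
theorem Pos.zero : Pos (0 : R) := AddSubmonoid.zero_mem _
theorem Pos.add {a b : R} (ha : Pos a) (hb : Pos b) : Pos (a + b) := AddSubmonoid.add_mem _ ha hb
theorem Pos.sum {ι : Type} (s : Finset ι) {f : ι → R} (h : ∀ i ∈ s, Pos (f i)) :
    Pos (∑ i ∈ s, f i) := AddSubmonoid.sum_mem _ h

theorem Pos.induction {p : R → Prop} {a : R} (ha : Pos a) (h0 : p 0) (hs : ∀ b, p (star b * b))
    (hadd : ∀ a b, p a → p b → p (a + b)) : p a := by
  induction ha using AddSubmonoid.closure_induction with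
  | mem x hx => obtain ⟨b, rfl⟩ := hx; exact hs b
  | zero => exact h0
  | add x y _ _ hx hy => exact hadd x y hx hy

theorem Pos.smul {a : R} (ha : Pos a) {r : ℝ} (hr : 0 ≤ r) : Pos ((r : ℂ) • a) := by
  refine ha.induction (p := fun a => Pos ((r : ℂ) • a)) (by simpa using Pos.zero) (fun b => ?_)
    fun a b ha hb => by simpa [smul_add] using ha.add hb
  have := Pos.sq (((√r : ℝ) : ℂ) • b)
  rwa [star_smul, smul_mul_smul_comm, Complex.star_def, Complex.conj_ofReal, ← Complex.ofReal_mul,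
    Real.mul_self_sqrt hr] at this

theorem Pos.of_eq {a b : R} (ha : Pos a) (h : a = b) : Pos b := h ▸ ha

theorem Pos.proj {e : R} (h1 : star e = e) (h2 : e * e = e) : Pos e := by
  simpa [h1, h2] using Pos.sq e

/-- two projections `e, f` below `W` at a large angle -/
theorem angle {W e f : R} (hW : star W = W) (hWW : W * W = W) (he : star e = e) (hee : e * e = e)
    (hf : star f = f) (hff : f * f = f) (We : W * e = e) (Wf : W * f = f)
    (hfe : f * e * f = (1 / 17 : ℂ) • f) :
    Pos ((W - e) * (W - f) + (W - f) * (W - e) + (1 / 4 : ℂ) • ((W - e) + (W - f))) := by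
  have eW : e * W = e := by simpa [hW, he] using congrArg star We
  have fW : f * W = f := by simpa [hW, hf] using congrArg star Wf
  have h1 := Pos.sq ((1 / 2 : ℂ) • e - (2 : ℂ) • (e * f))
  have h2 := Pos.proj hf hff
  have h3 := Pos.sq ((5 / 4 : ℂ) • W - (e + f))
  have a1 : e * (e * f) = e * f := by rw [← mul_assoc, hee]
  have a2 : f * e * e = f * e := by rw [mul_assoc, hee]
  have a3 : f * e * (e * f) = (1 / 17 : ℂ) • f := by rw [← mul_assoc, a2, hfe]
  simp only [star_sub, star_add, star_smul, star_mul, he, hf, hW, sub_mul, mul_sub, add_mul,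
    mul_add, smul_mul_assoc, mul_smul_comm, a1, a2, a3, hee, hff, hWW, We, Wf, eW, fW, star_div₀,
    star_ofNat, star_one] at h1 h3
  have h4 := (h3.smul (r := 8 / 5) (by norm_num)).add
    ((h1.add (h2.smul (r := 1 / 68) (by norm_num))).smul (r := 3 / 5) (by norm_num))
  refine h4.of_eq ?_
  simp only [sub_mul, mul_sub, hWW, We, Wf, eW, fW]
  push_cast
  module

end cone

section group
variable {G : Type} [Group G] {R : Type} [Ring R] [StarRing R] [Algebra ℂ R] [StarModule ℂ R]
  (U : G →* R)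

/-- commutator -/
def cm (a b : G) : G := a * b * a⁻¹ * b⁻¹

/-- `a ^ k` for `k` modulo 17 -/
def zp (a : G) (k : ZMod 17) : G := a ^ k.val

theorem zp_add {a : G} (ha : a ^ 17 = 1) (k l : ZMod 17) : zp a (k + l) = zp a k * zp a l := by
  unfold zp
  rw [← pow_add, ZMod.val_add, ← pow_eq_pow_mod _ ha]

theorem zp_mul {a : G} (ha : a ^ 17 = 1) (k l : ZMod 17) : zp a (k * l) = zp (zp a k) l := by
  unfold zp
  rw [← pow_mul, ZMod.val_mul, ← pow_eq_pow_mod _ ha]

@[simp] theorem zp_zero (a : G) : zp a 0 = 1 := by simp [zp]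

theorem zp_one (a : G) : zp a 1 = a := by
  unfold zp
  rw [show (1 : ZMod 17).val = 1 from rfl, pow_one]

theorem zp_neg {a : G} (ha : a ^ 17 = 1) (k : ZMod 17) : zp a (-k) = (zp a k)⁻¹ := by
  rw [eq_inv_iff_mul_eq_one, ← zp_add ha, neg_add_cancel, zp_zero]

/-- averaging over the cyclic group generated by `a` -/
noncomputable def Pj (a : G) : R := (1 / 17 : ℂ) • ∑ k : ZMod 17, U (zp a k)

variable {U}

theorem mul_Pj {a : G} (ha : a ^ 17 = 1) (l : ZMod 17) : U (zp a l) * Pj U a = Pj U a := by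
  unfold Pj
  rw [mul_smul_comm, mul_sum]
  congr 1
  exact Fintype.sum_equiv (Equiv.addLeft l) _ _ fun k => by simp [zp_add ha]

theorem Pj_mul {a : G} (ha : a ^ 17 = 1) (l : ZMod 17) : Pj U a * U (zp a l) = Pj U a := by
  unfold Pj
  rw [smul_mul_assoc, sum_mul]
  congr 1
  exact Fintype.sum_equiv (Equiv.addRight l) _ _ fun k => by simp [zp_add ha]

theorem avg_const (b : R) : (1 / 17 : ℂ) • ∑ _k : ZMod 17, b = b := by
  rw [sum_const, card_univ, ZMod.card, ← Nat.cast_smul_eq_nsmul ℂ, smul_smul]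
  norm_num

theorem Pj_Pj {a : G} (ha : a ^ 17 = 1) : Pj U a * Pj U a = Pj U a := by
  conv_lhs => rw [Pj.eq_def U a, smul_mul_assoc, sum_mul]
  simp only [← Pj.eq_def, mul_Pj ha]
  exact avg_const _

theorem star_Pj (hU : ∀ g, star (U g) = U g⁻¹) {a : G} (ha : a ^ 17 = 1) :
    star (Pj U a) = Pj U a := by
  unfold Pj
  rw [star_smul, star_sum]
  congr 1
  · simp
  · exact Fintype.sum_equiv (Equiv.neg _) _ _ fun k => by simp [zp_neg ha, hU]

theorem comm_Pj {a : G} {b : R} (h : Commute b (U a)) : Commute b (Pj U a) := by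
  unfold Pj
  refine Commute.smul_right (Commute.sum_right _ _ _ fun k _ => ?_) _
  unfold zp
  rw [map_pow]
  exact h.pow_right _

theorem heis_pow {a b z : G} (h : b * a = z * a * b) (hza : Commute z a) (hzb : Commute z b)
    (i j : ℕ) : b ^ i * a ^ j = z ^ (j * i) * a ^ j * b ^ i := by
  have h1 : ∀ j : ℕ, b * a ^ j = z ^ j * a ^ j * b := by
    intro j
    induction j with
    | zero => simp
    | succ j ih =>
      rw [pow_succ, ← mul_assoc, ih, mul_assoc _ b, h, pow_succ z]
      simp only [mul_assoc]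
      rw [← mul_assoc (a ^ j) z, ← (hza.pow_right j).eq]
      simp only [mul_assoc]
  induction i with
  | zero => simp
  | succ i ih =>
    rw [pow_succ', mul_assoc, ih, ← mul_assoc, ← mul_assoc, ← (hzb.pow_left _).eq, mul_assoc _ b,
      h1, mul_add, pow_add, mul_one]
    simp only [mul_assoc, pow_succ']

theorem pair (hU : ∀ g, star (U g) = U g⁻¹) {a b : G} (ha : a ^ 17 = 1) (hb : b ^ 17 = 1)
    (hza : Commute (cm (b) (a)) a) (hzb : Commute (cm (b) (a)) b) :
    Pos ((1 - Pj U a) * (1 - Pj U b) + (1 - Pj U b) * (1 - Pj U a) +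
      (1 / 4 : ℂ) • ((1 - Pj U a) + (1 - Pj U b))) := by
  haveI : Fact (Nat.Prime 17) := ⟨by norm_num⟩
  set z := (cm (b) (a)) with hz
  have h : b * a = z * a * b := by rw [hz, cm]; group
  have hz17 : z ^ 17 = 1 := by
    have := heis_pow h hza hzb 1 17
    simpa [ha] using this.symm
  have key : ∀ i j : ZMod 17, U (zp b i) * U (zp a j) = U (zp z (j * i)) * U (zp a j) * U (zp b i) := by
    intro i j
    rw [← map_mul, ← map_mul, ← map_mul, zp_mul hz17]
    unfold zp
    rw [heis_pow h hza hzb, pow_mul]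
  set P := Pj U a
  set P' := Pj U b
  set Z := Pj U z
  have cz : ∀ {c : G}, Commute z c → Commute Z (U c) := fun h => (comm_Pj (h.symm.map U)).symm
  have czz : ∀ {c : G} (k : ZMod 17), Commute z c → Commute (U (zp z k)) (U c) := fun k h =>
    (h.pow_left _).map U
  have ZP : Commute Z P := comm_Pj (cz hza)
  have ZP' : Commute Z P' := comm_Pj (cz hzb)
  have sP : star P = P := star_Pj hU ha
  have sP' : star P' = P' := star_Pj hU hb
  have sZ : star Z = Z := star_Pj hU hz17
  have PP : P * P = P := Pj_Pj ha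
  have PP' : P' * P' = P' := Pj_Pj hb
  have ZZ : Z * Z = Z := Pj_Pj hz17
  -- on the range of `Z` the projections commute
  have hc : Z * P * P' = Z * P' * P := by
    have h1 : Commute (Z * U a) (U b) := by
      have := key 1 1
      rw [mul_one, zp_one, zp_one, zp_one] at this
      have h2 := Pj_mul (U := U) hz17 1
      rw [zp_one] at h2
      change Z * U a * U b = U b * (Z * U a)
      rw [← mul_assoc, ← (cz hzb).eq, mul_assoc Z (U b), this, ← mul_assoc, ← mul_assoc, h2]
    have h2 : Commute (Z * P') (U a) := by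
      have := (comm_Pj h1).eq
      change Z * P' * U a = U a * (Z * P')
      rw [← mul_assoc, ← (cz hza).eq, this, ← mul_assoc, ZP'.eq]
    have := (comm_Pj h2).eq
    rw [this, ← mul_assoc, ZP.eq]
  -- on the complement the angle is large
  have hang : (1 - Z) * (P' * P * P') = (1 / 17 : ℂ) • ((1 - Z) * P') := by
    have h1 : ∀ j : ZMod 17, j ≠ 0 → (1 - Z) * (P' * U (zp a j) * P') = 0 := by
      intro j hj
      set X := P' * U (zp a j) * P'
      have h2 : ∀ i, U (zp z (j * i)) * X = X := by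
        intro i
        have c1 : Commute (U (zp z (j * i))) P' := comm_Pj (czz _ hzb)
        calc U (zp z (j * i)) * X = P' * (U (zp z (j * i)) * U (zp a j) * U (zp b i)) * P' := by
              rw [mul_assoc P', mul_assoc _ (U (zp b i)), mul_Pj hb, ← mul_assoc P', ← mul_assoc P',
                ← c1.eq]
              simp only [X, mul_assoc]
              rfl
          _ = X := by rw [← key, ← mul_assoc P', Pj_mul hb]
      have h3 : Z * X = X := by
        change Pj U z * X = X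
        rw [Pj, smul_mul_assoc, sum_mul,
          ← Equiv.sum_comp (Equiv.mulLeft₀ j hj) fun k => U (zp z k) * X]
        simp only [Equiv.mulLeft₀_apply, h2]
        exact avg_const X
      rw [sub_mul, one_mul, h3, sub_self]
    change (1 - Z) * (P' * Pj U a * P') = _
    rw [Pj, mul_smul_comm, smul_mul_assoc, mul_smul_comm, mul_sum, sum_mul, mul_sum,
      sum_eq_single 0 (fun j _ hj => h1 j hj) (by simp)]
    simp [PP']
  have hW : (1 - Z) * (1 - Z) = 1 - Z := by simp [sub_mul, mul_sub, ZZ]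
  have cP : Commute (1 - Z) P := (Commute.one_left P).sub_left ZP
  have cP' : Commute (1 - Z) P' := (Commute.one_left P').sub_left ZP'
  have sW : star (1 - Z) = 1 - Z := by simp [sZ]
  have mm : ∀ {W A B : R}, W * W = W → Commute W A → W * A * (W * B) = W * (A * B) := by
    intro W A B h1 h2
    rw [mul_assoc, ← mul_assoc A, ← h2.eq, ← mul_assoc, ← mul_assoc, h1, mul_assoc]
  have st : ∀ {W A : R}, star W = W → star A = A → Commute W A → star (W * A) = W * A := by
    intro W A h1 h2 h3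
    rw [star_mul, h1, h2, h3.eq]
  have p1 := angle (W := 1 - Z) (e := (1 - Z) * P) (f := (1 - Z) * P') sW hW (st sW sP cP)
    (by rw [mm hW cP, PP]) (st sW sP' cP') (by rw [mm hW cP', PP']) (by rw [← mul_assoc, hW])
    (by rw [← mul_assoc, hW]) (by rw [mm hW cP', mm hW (cP'.mul_right cP), hang])
  have ZQ : Commute Z (1 - P) := (Commute.one_right Z).sub_right ZP
  have ZQ' : Commute Z (1 - P') := (Commute.one_right Z).sub_right ZP'
  have QQ : (1 - P) * (1 - P) = 1 - P := by simp [sub_mul, mul_sub, PP]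
  have QQ' : (1 - P') * (1 - P') = 1 - P' := by simp [sub_mul, mul_sub, PP']
  have sQ : star (1 - P) = 1 - P := by simp [sP]
  have sQ' : star (1 - P') = 1 - P' := by simp [sP']
  have hc' : Z * ((1 - P) * (1 - P')) = Z * ((1 - P') * (1 - P)) := by
    simp only [mul_sub, sub_mul, mul_one, one_mul, ← mul_assoc, hc]
    abel
  have p2 : Pos (Z * (1 - P)) := Pos.proj (st sZ sQ ZQ) (by rw [mm ZZ ZQ, QQ])
  have p3 : Pos (Z * (1 - P')) := Pos.proj (st sZ sQ' ZQ') (by rw [mm ZZ ZQ', QQ'])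
  have p4 : Pos (Z * ((1 - P) * (1 - P'))) := by
    refine (Pos.sq (Z * (1 - P) * (1 - P'))).of_eq ?_
    rw [star_mul, sQ', st sZ sQ ZQ, mul_assoc, ← mul_assoc (Z * (1 - P)), mm ZZ ZQ, QQ, ← mul_assoc,
      ← mul_assoc, ← ZQ'.eq, mul_assoc Z, ← hc', mul_assoc, mul_assoc, QQ']
  refine (p1.add ((p4.add p4).add ((p2.add p3).smul (r := 1 / 4) (by norm_num)))).of_eq ?_
  have e1 : ∀ A : R, 1 - Z - (1 - Z) * A = (1 - Z) * (1 - A) := fun A => by rw [mul_sub, mul_one]
  have cQ : Commute (1 - Z) (1 - P) := (Commute.one_right _).sub_right cP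
  have cQ' : Commute (1 - Z) (1 - P') := (Commute.one_right _).sub_right cP'
  rw [e1, e1, mm hW cQ, mm hW cQ']
  nth_rewrite 2 [hc']
  generalize (1 - P) * (1 - P') = X1
  generalize (1 - P') * (1 - P) = X2
  generalize 1 - P = Q1
  generalize 1 - P' = Q2
  simp only [sub_mul, one_mul]
  push_cast
  module

/-- the four generators -/
structure Gen (x : Fin 4 → G) : Prop where
  pow : ∀ i, x i ^ 17 = 1
  nil : ∀ i j, Commute (cm (x i) (x j)) (x i) ∧ Commute (cm (x i) (x j)) (x j)

variable (U) in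
/-- the Laplacian made of projections -/
noncomputable def Dl (x : Fin 4 → G) : R := ∑ i, (1 - Pj U (x i))

variable (U) in
/-- displacement -/
def Nn (g : G) : R := star (U g - 1) * (U g - 1)

variable (U) in
/-- the usual Laplacian -/
def Ll (x : Fin 4 → G) : R := ∑ i, Nn U (x i)

theorem star_Dl (hU : ∀ g, star (U g) = U g⁻¹) {x : Fin 4 → G} (hx : Gen x) :
    star (Dl U x) = Dl U x := by
  simp [Dl, star_sum, star_Pj hU (hx.pow _)]

theorem gap (hU : ∀ g, star (U g) = U g⁻¹) {x : Fin 4 → G} (hx : Gen x) :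
    Pos (Dl U x * Dl U x - (1 / 4 : ℂ) • Dl U x) := by
  have p := fun i j => pair hU (hx.pow i) (hx.pow j) (hx.nil j i).2 (hx.nil j i).1
  have QQ : ∀ i, (1 - Pj U (x i)) * (1 - Pj U (x i)) = 1 - Pj U (x i) := fun i => by
    simp [sub_mul, mul_sub, Pj_Pj (hx.pow i)]
  refine (((((p 0 1).add (p 0 2)).add (p 0 3)).add (p 1 2)).add ((p 1 3).add (p 2 3))).of_eq ?_
  simp only [Dl, Fin.sum_univ_four, add_mul, mul_add, QQ]
  module

theorem Nn_eq (hU : ∀ g, star (U g) = U g⁻¹) (g : G) : Nn U g = 2 - U g - U g⁻¹ := by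
  simp only [Nn, star_sub, hU, star_one, sub_mul, mul_sub, ← map_mul, inv_mul_cancel, map_one,
    mul_one, one_mul]
  rw [← one_add_one_eq_two]
  abel

theorem Nn_mul (hU : ∀ g, star (U g) = U g⁻¹) (g h : G) :
    Pos ((2 : ℂ) • Nn U g + (2 : ℂ) • Nn U h - Nn U (g * h)) := by
  refine (Pos.sq (U g * (U h - 1) - (U g - 1))).of_eq ?_
  have e1 : U g⁻¹ * U g = 1 := by rw [← map_mul, inv_mul_cancel, map_one]
  have e2 : U h⁻¹ * U h = 1 := by rw [← map_mul, inv_mul_cancel, map_one]
  have e3 : ∀ y, U g⁻¹ * (U g * y) = y := fun y => by rw [← mul_assoc, e1, one_mul]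
  simp only [Nn_eq hU, star_sub, star_mul, hU, star_one, mul_inv_rev, map_mul, sub_mul, mul_sub,
    mul_one, one_mul, mul_assoc, e1, e2, e3, ← one_add_one_eq_two (R := R)]
  module

theorem Pos_Nn (g : G) : Pos (Nn U g) := Pos.sq _

theorem Pos_Ll (x : Fin 4 → G) : Pos (Ll U x) := Pos.sum _ fun _ _ => Pos_Nn _

theorem Dl_eq_sum (x : Fin 4 → G) :
    Dl U x = ∑ i, (1 / 17 : ℂ) • ∑ k : ZMod 17, (1 - U (zp (x i) k)) := by
  unfold Dl
  refine sum_congr rfl fun i _ => ?_
  rw [sum_sub_distrib, smul_sub, avg_const, Pj]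

theorem Ll_le (hU : ∀ g, star (U g) = U g⁻¹) {x : Fin 4 → G} (hx : Gen x) :
    Pos ((4 : ℂ) • Dl U x - Ll U x) := by
  unfold Dl Ll
  rw [smul_sum, ← sum_sub_distrib]
  refine Pos.sum _ fun i _ => (Pos.sq ((1 + U (x i)) * (1 - Pj U (x i)))).of_eq ?_
  have a1 := mul_Pj (U := U) (hx.pow i) 1
  have a2 := Pj_mul (U := U) (hx.pow i) 1
  have a3 := mul_Pj (U := U) (hx.pow i) (-1)
  have a4 := Pj_mul (U := U) (hx.pow i) (-1)
  rw [zp_one] at a1 a2
  rw [zp_neg (hx.pow i), zp_one] at a3 a4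
  have e1 : U (x i)⁻¹ * U (x i) = 1 := by rw [← map_mul, inv_mul_cancel, map_one]
  have a5 : ∀ y, Pj U (x i) * (U (x i)⁻¹ * y) = Pj U (x i) * y := fun y => by
    rw [← mul_assoc, a4]
  simp only [Nn_eq hU, star_sub, star_add, star_mul, hU, star_one, star_Pj hU (hx.pow i), sub_mul,
    mul_sub, add_mul, mul_add, mul_one, one_mul, mul_assoc, e1, a1, a2, a3, a4, a5,
    Pj_Pj (hx.pow i), ← one_add_one_eq_two (R := R)]
  module

end group

theorem Nn_le {G : Type} [Group G] (x : Fin 4 → G) {g : G} (hg : g ∈ Subgroup.closure (Set.range x)) :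
    ∃ C : ℝ, 0 ≤ C ∧ ∀ (R : Type) [Ring R] [StarRing R] [Algebra ℂ R] [StarModule ℂ R] (U : G →* R),
      (∀ g, star (U g) = U g⁻¹) → Pos ((C : ℂ) • Ll U x - Nn U g) := by
  induction hg using Subgroup.closure_induction with
  | mem g hg =>
    obtain ⟨i, rfl⟩ := hg
    refine ⟨1, zero_le_one, fun R _ _ _ _ U _ => ?_⟩
    rw [Complex.ofReal_one, one_smul, Ll, ← add_sum_erase _ _ (mem_univ i), add_sub_cancel_left]
    exact Pos.sum _ fun _ _ => Pos_Nn _
  | one =>
    refine ⟨0, le_rfl, fun R _ _ _ _ U _ => ?_⟩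
    simpa [Nn] using Pos.zero
  | mul g h _ _ hg hh =>
    obtain ⟨C, hC, hg⟩ := hg
    obtain ⟨C', hC', hh⟩ := hh
    refine ⟨2 * C + 2 * C', by positivity, fun R _ _ _ _ U hU => ?_⟩
    refine ((((hg R U hU).add (hh R U hU)).smul (r := 2) (by norm_num)).add (Nn_mul hU g h)).of_eq ?_
    push_cast
    module
  | inv g _ hg =>
    obtain ⟨C, hC, hg⟩ := hg
    refine ⟨C, hC, fun R _ _ _ _ U hU => (hg R U hU).of_eq ?_⟩
    rw [Nn_eq hU, Nn_eq hU, inv_inv, sub_right_comm]

theorem Dl_le {G : Type} [Group G] {x : Fin 4 → G} (hx : Gen x) :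
    ∃ C : ℝ, 0 < C ∧ ∀ (R : Type) [Ring R] [StarRing R] [Algebra ℂ R] [StarModule ℂ R] (U : G →* R),
      (∀ g, star (U g) = U g⁻¹) → Pos ((C : ℂ) • Ll U x - Dl U x) := by
  have h := fun (i : Fin 4) (k : ZMod 17) => Nn_le x (g := zp (x i) k)
    (Subgroup.pow_mem _ (Subgroup.subset_closure (Set.mem_range_self i)) _)
  choose C hC h using h
  refine ⟨(1 / 34) * ∑ i, ∑ k, C i k + 1, ?_, fun R _ _ _ _ U hU => ?_⟩
  · have : 0 ≤ ∑ i, ∑ k, C i k := sum_nonneg fun i _ => sum_nonneg fun k _ => hC i k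
    positivity
  have p := ((Pos.sum univ fun i _ => Pos.sum univ fun k _ => h i k R U hU).smul (r := 1 / 34)
    (by norm_num)).add (Pos_Ll (U := U) x)
  refine p.of_eq ?_
  have e : ∀ i, ∑ k : ZMod 17, Nn U (zp (x i) k) =
      (2 : ℂ) • ∑ k : ZMod 17, (1 - U (zp (x i) k)) := by
    intro i
    have : ∑ k : ZMod 17, (1 - U (zp (x i) k)⁻¹) = ∑ k : ZMod 17, (1 - U (zp (x i) k)) :=
      Fintype.sum_equiv (Equiv.neg _) _ _ fun k => by simp [zp_neg (hx.pow i)]
    rw [two_smul]
    nth_rewrite 2 [← this]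
    rw [← sum_add_distrib]
    refine sum_congr rfl fun k _ => ?_
    rw [Nn_eq hU, ← one_add_one_eq_two]
    abel
  simp only [sum_sub_distrib (f := fun k => (C _ k : ℂ) • Ll U x), e, Dl_eq_sum, ← sum_smul,
    sum_sub_distrib (f := fun i => (∑ k, (C i k : ℂ)) • Ll U x), ← smul_sum]
  push_cast
  module

end Crest.Agent.H3.KE
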