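import Mathlib
import Crest.Prelude.Def_CStarEmbedding

/-! Universal C⋆-algebras: an extension lemma and the full group C⋆-algebra. -/

namespace Crest.Agent.H3.KE

open scoped ENNReal

section
variable {X : Type}

/-- evaluation of a noncommutative polynomial in `t x` and `star (t x)` -/
noncomputable def ev {B : Type} [CStarAlgebra B] (t : X → B) : FreeAlgebra ℂ (X × Bool) →ₐ[ℂ] B :=
  FreeAlgebra.lift ℂ fun p => bif p.2 then t p.1 else star (t p.1)

@[simp] theorem ev_true {B : Type} [CStarAlgebra B] (t : X → B) (x : X) :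
    ev t (FreeAlgebra.ι ℂ (x, true)) = t x := by simp [ev]

@[simp] theorem ev_false {B : Type} [CStarAlgebra B] (t : X → B) (x : X) :
    ev t (FreeAlgebra.ι ℂ (x, false)) = star (t x) := by simp [ev]

theorem exists_star (w : FreeAlgebra ℂ (X × Bool)) :
    ∃ w', ∀ (B : Type) [CStarAlgebra B] (t : X → B), ev t w' = star (ev t w) := by
  induction w using FreeAlgebra.induction with
  | grade0 r => exact ⟨algebraMap ℂ _ (star r), fun B _ t => by
      rw [AlgHom.commutes, AlgHom.commutes, algebraMap_star_comm]⟩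
  | grade1 p =>
    obtain ⟨x, _ | _⟩ := p
    · exact ⟨FreeAlgebra.ι ℂ (x, true), fun B _ t => by simp⟩
    · exact ⟨FreeAlgebra.ι ℂ (x, false), fun B _ t => by simp⟩
  | mul a b ha hb =>
    obtain ⟨a', ha⟩ := ha
    obtain ⟨b', hb⟩ := hb
    exact ⟨b' * a', fun B _ t => by simp [ha, hb]⟩
  | add a b ha hb =>
    obtain ⟨a', ha⟩ := ha
    obtain ⟨b', hb⟩ := hb
    exact ⟨a' + b', fun B _ t => by simp [ha, hb]⟩

theorem map_ev {B B' : Type} [CStarAlgebra B] [CStarAlgebra B'] (f : B →⋆ₐ[ℂ] B') (t : X → B)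
    (w : FreeAlgebra ℂ (X × Bool)) : f (ev t w) = ev (fun x => f (t x)) w := by
  induction w using FreeAlgebra.induction with
  | grade0 r => rw [AlgHom.commutes, AlgHom.commutes, AlgHomClass.commutes]
  | grade1 p => obtain ⟨x, _ | _⟩ := p <;> simp [map_star]
  | mul a b ha hb => simp [ha, hb]
  | add a b ha hb => simp [ha, hb]

theorem mem_adjoin_iff {B : Type} [CStarAlgebra B] (t : X → B) (b : B) :
    b ∈ StarAlgebra.adjoin ℂ (Set.range t) ↔ b ∈ Set.range (ev t) := by
  constructor
  · intro hb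
    induction hb using StarAlgebra.adjoin_induction with
    | mem x hx => obtain ⟨x, rfl⟩ := hx; exact ⟨_, ev_true t x⟩
    | algebraMap r => exact ⟨algebraMap ℂ _ r, by simp⟩
    | add x y _ _ hx hy =>
      obtain ⟨a, rfl⟩ := hx
      obtain ⟨b, rfl⟩ := hy
      exact ⟨a + b, by simp⟩
    | mul x y _ _ hx hy =>
      obtain ⟨a, rfl⟩ := hx
      obtain ⟨b, rfl⟩ := hy
      exact ⟨a * b, by simp⟩
    | star x _ hx =>
      obtain ⟨a, rfl⟩ := hx
      obtain ⟨a', ha⟩ := exists_star a
      exact ⟨a', ha B t⟩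
  · rintro ⟨w, rfl⟩
    induction w using FreeAlgebra.induction with
    | grade0 r => simp
    | grade1 p =>
      obtain ⟨x, _ | _⟩ := p
      · rw [ev_false]
        exact star_mem (StarAlgebra.subset_adjoin ℂ _ ⟨x, rfl⟩)
      · rw [ev_true]
        exact StarAlgebra.subset_adjoin ℂ _ ⟨x, rfl⟩
    | mul a b ha hb => rw [map_mul]; exact mul_mem ha hb
    | add a b ha hb => rw [map_add]; exact add_mem ha hb

variable {E : Type} [CStarAlgebra E] (T : X → E)

/-- the C⋆-subalgebra generated by a family -/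
noncomputable def gen : StarSubalgebra ℂ E := (StarAlgebra.adjoin ℂ (Set.range T)).topologicalClosure

instance : IsClosed (gen T : Set E) := StarSubalgebra.isClosed_topologicalClosure _

noncomputable instance : CStarAlgebra (gen T) := StarSubalgebra.cstarAlgebra _

/-- the generators -/
noncomputable def tg (x : X) : gen T :=
  ⟨T x, StarSubalgebra.le_topologicalClosure _ (StarAlgebra.subset_adjoin ℂ _ ⟨x, rfl⟩)⟩

theorem coe_ev_tg (w : FreeAlgebra ℂ (X × Bool)) : (ev (tg T) w : E) = ev T w :=
  map_ev (gen T).subtype (tg T) w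

theorem mem_gen {a : E} (h : a ∈ gen T) : a ∈ closure (Set.range (ev T)) := by
  have : (StarAlgebra.adjoin ℂ (Set.range T) : Set E) = Set.range (ev T) :=
    Set.ext (mem_adjoin_iff T)
  rw [← this]
  exact h

theorem dense_ev : DenseRange (ev (tg T)) := by
  intro a
  rw [Topology.IsInducing.subtypeVal.closure_eq_preimage_closure_image, ← Set.range_comp]
  convert mem_gen T a.2 using 0
  rw [Set.mem_preimage]
  congr! 2
  exact congrArg Set.range (funext (coe_ev_tg T))

theorem closure_tg : (StarAlgebra.adjoin ℂ (Set.range (tg T))).topologicalClosure = ⊤ := by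
  refine eq_top_iff.2 fun a _ => ?_
  have : (StarAlgebra.adjoin ℂ (Set.range (tg T)) : Set (gen T)) = Set.range (ev (tg T)) :=
    Set.ext (mem_adjoin_iff _)
  change a ∈ closure (StarAlgebra.adjoin ℂ (Set.range (tg T)) : Set (gen T))
  rw [this]
  exact dense_ev T a

theorem extend {B : Type} [CStarAlgebra B] (t : X → B) (h : ∀ w, ‖ev t w‖ ≤ ‖ev T w‖) :
    ∃ φ : gen T →⋆ₐ[ℂ] B, ∀ x, φ (tg T x) = t x := by
  have hd : DenseRange (ev (tg T)).toLinearMap := dense_ev T
  let f := (ev t).toLinearMap.extendOfNorm (ev (tg T)).toLinearMap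
  have hf : ∀ w, f (ev (tg T) w) = ev t w := fun w =>
    LinearMap.extendOfNorm_eq hd ⟨1, fun w => by
      rw [one_mul]
      exact (h w).trans_eq (by rw [← coe_ev_tg]; rfl)⟩ w
  refine ⟨{ toFun := f
            map_one' := by simpa using hf 1
            map_mul' := fun a b => ?_
            map_zero' := map_zero f
            map_add' := map_add f
            commutes' := fun r => by simpa using hf (algebraMap ℂ _ r)
            map_star' := fun a => ?_ }, fun x => by simpa using hf (FreeAlgebra.ι ℂ (x, true))⟩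
  · refine (dense_ev T).induction_on₂ (p := fun a b => f (a * b) = f a * f b)
      (isClosed_eq (by fun_prop) (by fun_prop)) (fun a b => ?_) a b
    rw [← map_mul, hf, hf, hf, map_mul]
  · refine (dense_ev T).induction_on (p := fun a => f (star a) = star (f a)) a
      (isClosed_eq (by fun_prop) (by fun_prop)) fun a => ?_
    obtain ⟨a', ha⟩ := exists_star a
    rw [← ha, hf, hf, ha]

end

/-- unitary representations in nonzero C⋆-algebras -/
structure Rp (Γ : Type) [Group Γ] : Type 1 where
  B : Type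
  [inst : CStarAlgebra B]
  [nt : Nontrivial B]
  w : Γ →* unitary B

attribute [instance] Rp.inst Rp.nt

noncomputable instance lpCStar {I : Type} {A : I → Type} [∀ i, Nontrivial (A i)]
    [∀ i, CStarAlgebra (A i)] : CStarAlgebra (lp A ∞) where

theorem exists_full (Γ : Type) [Group Γ] : ∃ (A : Type) (_ : CStarAlgebra A) (u : Γ →* unitary A),
    Crest.AnalysisR.CStarEmbedding.IsFullGroupCStar A u := by
  let val : Rp Γ → FreeAlgebra ℂ (Γ × Bool) → ℝ := fun r w => ‖ev (fun g => (r.w g : r.B)) w‖
  have bd : ∀ w, ∃ C, ∀ r, val r w ≤ C := by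
    intro w
    induction w using FreeAlgebra.induction with
    | grade0 c => exact ⟨‖c‖, fun r => by simp [val]⟩
    | grade1 p => exact ⟨1, fun r => by obtain ⟨x, _ | _⟩ := p <;> simp [val]⟩
    | mul a b ha hb =>
      obtain ⟨C, ha⟩ := ha
      obtain ⟨C', hb⟩ := hb
      refine ⟨C * C', fun r => ?_⟩
      simp only [val, map_mul]
      exact (norm_mul_le _ _).trans (mul_le_mul (ha r) (hb r) (norm_nonneg _)
        ((norm_nonneg _).trans (ha r)))
    | add a b ha hb =>
      obtain ⟨C, ha⟩ := ha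
      obtain ⟨C', hb⟩ := hb
      refine ⟨C + C', fun r => ?_⟩
      simp only [val, map_add]
      exact (norm_add_le _ _).trans (add_le_add (ha r) (hb r))
  have ne : Nonempty (Rp Γ) := ⟨⟨ℂ, 1⟩⟩
  have ex : ∀ i : FreeAlgebra ℂ (Γ × Bool) × ℕ, ∃ r : Rp Γ,
      sSup (Set.range fun r => val r i.1) - 1 / (i.2 + 1 : ℝ) < val r i.1 := by
    intro i
    obtain ⟨_, ⟨r, rfl⟩, h⟩ := exists_lt_of_lt_csSup (Set.range_nonempty fun r => val r i.1)
      (sub_lt_self _ (Nat.one_div_pos_of_nat (n := i.2)))
    exact ⟨r, h⟩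
  choose r hr using ex
  let T : Γ → lp (fun i => (r i).B) ∞ := fun g => ⟨fun i => ((r i).w g : (r i).B),
    memℓp_infty ⟨1, by rintro _ ⟨i, rfl⟩; simp⟩⟩
  have hT : ∀ w i, (ev T w) i = ev (fun g => ((r i).w g : (r i).B)) w := by
    intro w i
    induction w using FreeAlgebra.induction with
    | grade0 c => simp only [AlgHom.commutes]; rfl
    | grade1 p => obtain ⟨x, _ | _⟩ := p <;> simp [T]
    | mul a b ha hb => simp [lp.infty_coeFn_mul, ha, hb]
    | add a b ha hb => simp [ha, hb]
  have hN : ∀ (s : Rp Γ) w, val s w ≤ ‖ev T w‖ := by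
    intro s w
    refine le_of_forall_pos_lt_add fun ε hε => ?_
    obtain ⟨n, hn⟩ := exists_nat_one_div_lt hε
    have h1 := hr (w, n)
    have h2 : val s w ≤ sSup (Set.range fun r => val r w) := by
      obtain ⟨C, hC⟩ := bd w
      exact le_csSup ⟨C, by rintro _ ⟨r, rfl⟩; exact hC r⟩ ⟨s, rfl⟩
    have h3 : val (r (w, n)) w ≤ ‖ev T w‖ := by
      simp only [val, ← hT]
      exact lp.norm_apply_le_norm ENNReal.top_ne_zero _ _
    simp only at h1
    linarith
  have T1 : T 1 = 1 := by ext i; simp [T, lp.infty_coeFn_one]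
  have Tm : ∀ g h, T (g * h) = T g * T h := fun g h => by ext i; simp [T, lp.infty_coeFn_mul]
  have Ts : ∀ g, star (T g) = T g⁻¹ := fun g => by
    ext i
    simp [T, ← Unitary.star_eq_inv]
  let u : Γ →* unitary (gen T) :=
    { toFun := fun g => ⟨tg T g, by
        constructor <;> apply Subtype.ext
        · change star (T g) * T g = 1
          rw [Ts, ← Tm, inv_mul_cancel, T1]
        · change T g * star (T g) = 1
          rw [Ts, ← Tm, mul_inv_cancel, T1]⟩
      map_one' := Subtype.ext (Subtype.ext T1)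
      map_mul' := fun g h => Subtype.ext (Subtype.ext (Tm g h)) }
  refine ⟨gen T, inferInstance, u, closure_tg T, fun B _ w => ?_⟩
  refine extend T (fun g => (w g : B)) fun a => ?_
  rcases subsingleton_or_nontrivial B with h | h
  · rw [Subsingleton.elim (ev _ a) 0, norm_zero]
    exact norm_nonneg _
  · exact hN ⟨B, w⟩ a

end Crest.Agent.H3.KE
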