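import Crest.Agent.H3.KE.L2
import Crest.Agent.H3.KE.Univ

/-! The Cuntz algebra on two isometries and its finite-dimensional approximation property. -/

namespace Crest.Agent.H3.KE

open Finset
open scoped InnerProductSpace

/-- index set of the concrete representation -/
abbrev X0 : Type := ℤ × (ℕ → Bool)

/-- the two branches -/
def br (b : Bool) (p : X0) : X0 := (p.1 + 1, fun k => Nat.casesOn k b p.2)

theorem br_eq {b b' : Bool} {p p' : X0} : br b p = br b' p' ↔ b = b' ∧ p = p' := by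
  constructor
  · intro h
    have h1 := congrArg Prod.fst h
    have h2 := congrArg Prod.snd h
    refine ⟨congrFun h2 0, Prod.ext (by simpa [br] using h1) (funext fun k => congrFun h2 (k + 1))⟩
  · rintro ⟨rfl, rfl⟩
    rfl

theorem br_surj (y : X0) : ∃ b p, y = br b p :=
  ⟨y.2 0, (y.1 - 1, fun k => y.2 (k + 1)), Prod.ext (by simp [br]) (funext fun k => by
    cases k <;> rfl)⟩

/-- the Hilbert space -/
abbrev H0 : Type := L2 X0

/-- the concrete isometries -/
noncomputable def Sb (b : Bool) : H0 →L[ℂ] H0 := iso (br b) fun _ _ h => (br_eq.1 h).2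

theorem Sb_dl (b : Bool) (p : X0) : Sb b (dl p) = dl (br b p) := iso_dl _ _ _

/-- Cuntz relations -/
structure Cz {B : Type} [CStarAlgebra B] (t : Bool → B) : Prop where
  orth : ∀ b b', star (t b) * t b' = if b = b' then 1 else 0
  sum : ∑ b, t b * star (t b) = 1

theorem Cz.of {B : Type} [CStarAlgebra B] {t : Bool → B} (h1 : star (t true) * t true = 1)
    (h2 : star (t false) * t false = 1) (h : t true * star (t true) + t false * star (t false) = 1) :
    Cz t := by
  have h3 : star (t false) * t true = 0 := by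
    rw [← CStarRing.star_mul_self_eq_zero_iff]
    have := congrArg (fun y => star (t true) * y * t true) h
    simp only [mul_add, add_mul, ← mul_assoc, h1, one_mul, mul_one] at this
    simpa [mul_assoc] using this
  have h4 : star (t true) * t false = 0 := by simpa using congrArg star h3
  exact ⟨by rintro (_ | _) (_ | _) <;> simp [*], by simpa using h⟩

theorem cz_Sb : Cz Sb := by
  have h : ∀ b b', star (Sb b) * Sb b' = if b = b' then 1 else 0 := fun b b' =>
    ext_inner fun y y' => by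
      rw [ContinuousLinearMap.mul_apply, ContinuousLinearMap.star_eq_adjoint,
        ContinuousLinearMap.adjoint_inner_right, Sb_dl, Sb_dl, inner_dl_dl]
      by_cases hb : b = b'
      · subst hb
        rw [if_pos rfl, ContinuousLinearMap.one_apply, inner_dl_dl]
        by_cases hy : y' = y
        · rw [if_pos hy, if_pos (by rw [hy])]
        · rw [if_neg hy, if_neg fun e => hy (br_eq.1 e).2]
      · rw [if_neg hb, if_neg fun e => hb (br_eq.1 e).1]
        simp
  refine ⟨h, ext_dl fun y => ?_⟩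
  obtain ⟨b, p, rfl⟩ := br_surj y
  have : ∀ b', (Sb b' * star (Sb b')) (dl (br b p)) = if b' = b then dl (br b p) else 0 := by
    intro b'
    rw [← Sb_dl, ← ContinuousLinearMap.mul_apply, mul_assoc, h]
    split_ifs with hb <;> simp [hb]
  simp only [ContinuousLinearMap.sum_apply, this]
  simp

/-- words of a given length -/
def Wd : ℕ → Type
  | 0 => Unit
  | a + 1 => Bool × Wd a

instance : ∀ a, Fintype (Wd a)
  | 0 => inferInstanceAs (Fintype Unit)
  | a + 1 => @instFintypeProd Bool (Wd a) _ (instFintypeWd a)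

theorem sum_Wd {M : Type} [AddCommMonoid M] {a : ℕ} (f : Wd (a + 1) → M) :
    ∑ γ, f γ = ∑ b : Bool, ∑ γ : Wd a, f (b, γ) := Fintype.sum_prod_type (f := f)

/-- the product along a word -/
noncomputable def wd {B : Type} [CStarAlgebra B] (t : Bool → B) : ∀ a, Wd a → B
  | 0, _ => 1
  | a + 1, γ => t γ.1 * wd t a γ.2

theorem Cz.sum_wd {B : Type} [CStarAlgebra B] {t : Bool → B} (h : Cz t) :
    ∀ a, ∑ γ, wd t a γ * star (wd t a γ) = 1
  | 0 => by
    refine (Fintype.sum_subsingleton (ι := Unit) _ ()).trans ?_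
    simp [wd]
  | a + 1 => by
    rw [sum_Wd, ← h.sum]
    refine sum_congr rfl fun b _ => ?_
    have := h.sum_wd a
    simp only [wd, star_mul, mul_assoc, ← mul_sum]
    simp only [← mul_assoc, ← sum_mul, this, one_mul]

open Classical in
theorem Cz.orth_wd {B : Type} [CStarAlgebra B] {t : Bool → B} (h : Cz t) :
    ∀ a γ γ', star (wd t a γ) * wd t a γ' = if γ = γ' then 1 else 0
  | 0, (), () => by simp [wd]
  | a + 1, (b, γ), (b', γ') => by
    simp only [wd, star_mul]
    rw [mul_assoc, ← mul_assoc (star (t b)), h.orth]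
    by_cases hb : b = b'
    · subst hb
      rw [if_pos rfl, one_mul, h.orth_wd a]
      exact if_congr (by constructor; rintro rfl; rfl; intro e; exact (Prod.ext_iff.1 e).2) rfl rfl
    · rw [if_neg hb, zero_mul, mul_zero]
      exact (if_neg fun e => hb (Prod.ext_iff.1 e).1).symm

/-- basis vectors indexed by words -/
noncomputable def ew (a : ℕ) (γ : Wd a) : H0 := wd Sb a γ (dl (0, fun _ => false))

theorem ew_succ (a : ℕ) (b : Bool) (γ : Wd a) : ew (a + 1) (b, γ) = Sb b (ew a γ) := rfl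

theorem ew_eq : ∀ a γ, ∃ ω, ew a γ = dl ((a : ℤ), ω)
  | 0, _ => ⟨_, rfl⟩
  | a + 1, (b, γ) => by
    obtain ⟨ω, h⟩ := ew_eq a γ
    exact ⟨_, by rw [ew_succ, h, Sb_dl]; rfl⟩

theorem inner_ew_ne {a b : ℕ} (h : a ≠ b) (γ : Wd a) (γ' : Wd b) : ⟪ew a γ, ew b γ'⟫_ℂ = 0 := by
  obtain ⟨ω, h1⟩ := ew_eq a γ
  obtain ⟨ω', h2⟩ := ew_eq b γ'
  rw [h1, h2, inner_dl_dl, if_neg]
  simp [h]

open Classical in
theorem inner_ew (a : ℕ) (γ γ' : Wd a) : ⟪ew a γ, ew a γ'⟫_ℂ = if γ = γ' then 1 else 0 := by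
  rw [ew, ew, ← ContinuousLinearMap.adjoint_inner_right, ← ContinuousLinearMap.star_eq_adjoint,
    ← ContinuousLinearMap.mul_apply, cz_Sb.orth_wd]
  split_ifs
  · rw [ContinuousLinearMap.one_apply, inner_dl_dl, if_pos rfl]
  · simp

section
variable {B : Type} [CStarAlgebra B] (t : Bool → B)

/-- one block of the approximation -/
noncomputable def Th (a b : ℕ) (x : H0 →L[ℂ] H0) : B :=
  ∑ γ : Wd a, ∑ γ' : Wd b, ⟪ew a γ, x (ew b γ')⟫_ℂ • (wd t a γ * star (wd t b γ'))

variable {t}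

theorem Th_one (h : Cz t) (a b : ℕ) : Th t a b 1 = if a = b then 1 else 0 := by
  classical
  unfold Th
  split_ifs with hab
  · subst hab
    simpa [inner_ew] using h.sum_wd a
  · simp [inner_ew_ne hab]

theorem Th_mul (a b : ℕ) (i : Bool) (x : H0 →L[ℂ] H0) :
    Th t (a + 1) b (Sb i * x) = t i * Th t a b x := by
  unfold Th
  rw [sum_Wd, sum_eq_single i (fun j _ hj => ?_) (by simp)]
  · simp only [mul_sum, mul_smul_comm, wd, mul_assoc]
    refine sum_congr rfl fun γ _ => sum_congr rfl fun γ' _ => ?_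
    rw [ew_succ, ← ContinuousLinearMap.adjoint_inner_right, ← ContinuousLinearMap.star_eq_adjoint,
      ← ContinuousLinearMap.mul_apply, ← mul_assoc, cz_Sb.orth]
    simp
  · refine sum_eq_zero fun γ _ => sum_eq_zero fun γ' _ => ?_
    rw [ew_succ, ← ContinuousLinearMap.adjoint_inner_right, ← ContinuousLinearMap.star_eq_adjoint,
      ← ContinuousLinearMap.mul_apply, ← mul_assoc, cz_Sb.orth]
    simp [hj]

theorem Th_star_mul (h : Cz t) (a b : ℕ) (i : Bool) (x : H0 →L[ℂ] H0) :
    Th t a b (star (Sb i) * x) = star (t i) * Th t (a + 1) b x := by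
  unfold Th
  rw [sum_Wd, mul_sum, sum_eq_single i (fun j _ hj => ?_) (by simp)]
  · simp only [mul_sum, mul_smul_comm, wd, ← mul_assoc, h.orth, if_true, one_mul]
    refine sum_congr rfl fun γ _ => sum_congr rfl fun γ' _ => ?_
    rw [ew_succ, ContinuousLinearMap.mul_apply, ContinuousLinearMap.star_eq_adjoint,
      ContinuousLinearMap.adjoint_inner_right]
  · simp [mul_sum, wd, ← mul_assoc, h.orth, Ne.symm hj]

/-- index set of the approximation -/
abbrev Kw (M L : ℕ) : Type := Σ a : Fin L, Wd (M + a)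

variable (t) in
/-- the row coisometry -/
noncomputable def rw' (M L : ℕ) (γ : Kw M L) : B := ((√L)⁻¹ : ℂ) • wd t _ γ.2

theorem sq_inv (L : ℕ) : ((√L)⁻¹ : ℂ) * star ((√L)⁻¹ : ℂ) = (L : ℂ)⁻¹ := by
  rw [star_inv₀, Complex.star_def, Complex.conj_ofReal, ← mul_inv, ← Complex.ofReal_mul,
    Real.mul_self_sqrt (by positivity)]
  simp

theorem sum_rw (h : Cz t) (M : ℕ) {L : ℕ} (hL : 0 < L) :
    ∑ γ, rw' t M L γ * star (rw' t M L γ) = 1 := by
  simp only [rw', star_smul, smul_mul_smul_comm, sq_inv, ← smul_sum, Fintype.sum_sigma, h.sum_wd]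
  rw [sum_const, card_univ, Fintype.card_fin, ← Nat.cast_smul_eq_nsmul ℂ, smul_smul,
    inv_mul_cancel₀ (by exact_mod_cast hL.ne'), one_smul]

theorem orth_ew (M L : ℕ) : Orthonormal ℂ fun γ : Kw M L => ew _ γ.2 := by
  classical
  rw [orthonormal_iff_ite]
  rintro ⟨a, γ⟩ ⟨b, γ'⟩
  by_cases h : a = b
  · subst h
    simp [inner_ew]
  · rw [inner_ew_ne fun e => h (Fin.ext (Nat.add_left_cancel e)), if_neg fun e => h (Sigma.ext_iff.1 e).1]

variable (t) in
/-- the approximation -/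
noncomputable def Ps (M L : ℕ) (x : H0 →L[ℂ] H0) : B :=
  ∑ γ : Kw M L, ∑ γ' : Kw M L, ⟪ew _ γ.2, x (ew _ γ'.2)⟫_ℂ • (rw' t M L γ * star (rw' t M L γ'))

theorem Ps_eq (M L : ℕ) (x : H0 →L[ℂ] H0) :
    Ps t M L x = (L : ℂ)⁻¹ • ∑ a ∈ range L, ∑ b ∈ range L, Th t (M + a) (M + b) x := by
  simp only [Ps, rw', star_smul, smul_mul_smul_comm, sq_inv, Fintype.sum_sigma, Th, smul_sum,
    sum_range]
  refine sum_congr rfl fun a _ => sum_comm.trans (sum_congr rfl fun b _ => ?_)
  simp only [smul_smul, mul_comm]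

theorem norm_Ps_le (h : Cz t) (M : ℕ) {L : ℕ} (hL : 0 < L) (x : H0 →L[ℂ] H0) :
    ‖Ps t M L x‖ ≤ ‖x‖ := norm_cp_le (orth_ew M L) (sum_rw h M hL) x

theorem Ps_add (M L : ℕ) (x y : H0 →L[ℂ] H0) : Ps t M L (x + y) = Ps t M L x + Ps t M L y := by
  simp [Ps, inner_add_right, add_smul, sum_add_distrib]

theorem Ps_smul (M L : ℕ) (c : ℂ) (x : H0 →L[ℂ] H0) : Ps t M L (c • x) = c • Ps t M L x := by
  simp [Ps, smul_sum, mul_smul]

theorem approx (h : Cz t) (w : FreeAlgebra ℂ (Bool × Bool)) :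
    ∃ (l : ℕ) (C : ℝ), ∀ M, l ≤ M → ∀ L, 0 < L → ‖Ps t M L (ev Sb w) - ev t w‖ ≤ C / L := by
  let Q : Set (FreeAlgebra ℂ (Bool × Bool)) := {w | ∃ (l : ℕ) (d : ℤ), -l ≤ d ∧ d ≤ l ∧
    ∀ a, l ≤ a → ∀ b, Th t a b (ev Sb w) = if (a : ℤ) = b + d then ev t w else 0}
  have h1 : ∀ w, ∀ q ∈ Submodule.span ℂ Q, w * q ∈ Submodule.span ℂ Q := by
    intro w
    induction w using FreeAlgebra.induction with
    | grade0 r => exact fun q hq => by rw [← Algebra.smul_def]; exact Submodule.smul_mem _ _ hq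
    | grade1 p =>
      intro q hq
      induction hq using Submodule.span_induction with
      | mem q hq =>
        obtain ⟨l, d, h1, h2, h3⟩ := hq
        obtain ⟨i, _ | _⟩ := p
        · refine Submodule.subset_span ⟨l + 1, d - 1, by omega, by omega, fun a ha b => ?_⟩
          rw [map_mul, map_mul, ev_false, ev_false, Th_star_mul h, h3 _ (by omega), mul_ite,
            mul_zero]
          exact if_congr (by omega) rfl rfl
        · refine Submodule.subset_span ⟨l + 1, d + 1, by omega, by omega, fun a ha b => ?_⟩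
          obtain ⟨a, rfl⟩ : ∃ a', a = a' + 1 := ⟨a - 1, by omega⟩
          rw [map_mul, map_mul, ev_true, ev_true, Th_mul, h3 _ (by omega), mul_ite, mul_zero]
          exact if_congr (by omega) rfl rfl
      | zero => simp
      | add x y _ _ hx hy => rw [mul_add]; exact add_mem hx hy
      | smul c x _ hx => rw [mul_smul_comm]; exact Submodule.smul_mem _ _ hx
    | mul a b ha hb => exact fun q hq => by rw [mul_assoc]; exact ha _ (hb q hq)
    | add a b ha hb => exact fun q hq => by rw [add_mul]; exact add_mem (ha q hq) (hb q hq)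
  have h2 : w ∈ Submodule.span ℂ Q := by
    have := h1 w 1 (Submodule.subset_span ⟨0, 0, by simp, by simp, fun a _ b => by
      rw [map_one, map_one, Th_one h]; simp⟩)
    rwa [mul_one] at this
  induction h2 using Submodule.span_induction with
  | mem q hq =>
    obtain ⟨l, d, h1, h2, h3⟩ := hq
    refine ⟨l, 2 * l * ‖ev t q‖, fun M hM L hL => ?_⟩
    have hL' : (L : ℂ) ≠ 0 := by exact_mod_cast hL.ne'
    have e1 : ∀ a ∈ range L, ‖∑ b ∈ range L, Th t (M + a) (M + b) (ev Sb q) - ev t q‖ ≤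
        if a < l ∨ L ≤ a + l then ‖ev t q‖ else 0 := by
      intro a ha
      simp only [h3 _ (show l ≤ M + a by omega)]
      by_cases hb : ∃ b ∈ range L, ((M + a : ℕ) : ℤ) = (M + b : ℕ) + d
      · obtain ⟨b, hb, hb'⟩ := hb
        rw [sum_eq_single b (fun b' _ hbb => if_neg (by omega)) (fun h => absurd hb h), if_pos hb',
          sub_self, norm_zero]
        positivity
      · rw [sum_eq_zero fun b hb' => if_neg fun e => hb ⟨b, hb', e⟩, zero_sub, norm_neg, if_pos]
        by_contra hc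
        exact hb ⟨(a - d).toNat, by simp only [mem_range]; omega, by omega⟩
    have e2 : ((range L).filter fun a => a < l ∨ L ≤ a + l).card ≤ 2 * l := by
      refine (card_le_card (t := range l ∪ Ico (L - l) L) fun a ha => ?_).trans
        ((card_union_le _ _).trans (by simp; omega))
      simp only [mem_filter, mem_range, mem_union, mem_Ico] at ha ⊢
      omega
    have e3 : Ps t M L (ev Sb q) - ev t q = (L : ℂ)⁻¹ • ∑ a ∈ range L,
        (∑ b ∈ range L, Th t (M + a) (M + b) (ev Sb q) - ev t q) := by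
      rw [Ps_eq, sum_sub_distrib, smul_sub, sum_const, card_range, ← Nat.cast_smul_eq_nsmul ℂ,
        smul_smul, inv_mul_cancel₀ hL', one_smul]
    rw [e3, norm_smul, norm_inv, Complex.norm_natCast, div_eq_inv_mul]
    gcongr
    refine (norm_sum_le_of_le _ e1).trans ?_
    rw [← sum_filter, sum_const, nsmul_eq_mul]
    gcongr
    exact_mod_cast e2
  | zero => exact ⟨0, 0, fun M _ L _ => by simp [Ps]⟩
  | add x y _ _ hx hy =>
    obtain ⟨l, C, hx⟩ := hx
    obtain ⟨l', C', hy⟩ := hy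
    refine ⟨l + l', C + C', fun M hM L hL => ?_⟩
    rw [map_add, map_add, Ps_add, add_sub_add_comm, add_div]
    exact (norm_add_le _ _).trans (add_le_add (hx M (by omega) L hL) (hy M (by omega) L hL))
  | smul c x _ hx =>
    obtain ⟨l, C, hx⟩ := hx
    refine ⟨l, ‖c‖ * C, fun M hM L hL => ?_⟩
    rw [map_smul, map_smul, Ps_smul, ← smul_sub, norm_smul, mul_div_assoc]
    gcongr
    exact hx M hM L hL

theorem exists_small (C : ℝ) {ε : ℝ} (hε : 0 < ε) : ∃ L₀ : ℕ, ∀ L : ℕ, L₀ < L → C / L ≤ ε := by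
  obtain ⟨L₀, h⟩ := exists_nat_ge (C / ε)
  refine ⟨L₀, fun L hL => ?_⟩
  have h1 : (L₀ : ℝ) < L := by exact_mod_cast hL
  have h2 : (0 : ℝ) < L := lt_of_le_of_lt (by positivity) h1
  rw [div_le_iff₀ h2]
  rw [div_le_iff₀ hε] at h
  nlinarith

theorem norm_ev_le (h : Cz t) (w : FreeAlgebra ℂ (Bool × Bool)) : ‖ev t w‖ ≤ ‖ev Sb w‖ := by
  obtain ⟨l, C, hw⟩ := approx h w
  refine le_of_forall_pos_le_add fun ε hε => ?_
  obtain ⟨L, hL⟩ := exists_small C hε
  have h1 := (hw l le_rfl (L + 1) (by omega)).trans (hL (L + 1) (by omega))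
  have h2 := norm_Ps_le h l (L := L + 1) (by omega) (ev Sb w)
  have h3 := norm_sub_norm_le (ev t w) (Ps t l (L + 1) (ev Sb w))
  rw [norm_sub_rev] at h1
  linarith

end

theorem isCuntz : Crest.AnalysisR.CStarEmbedding.IsCuntzTwo (gen Sb) (tg Sb true) (tg Sb false) := by
  refine ⟨Subtype.ext (cz_Sb.orth true true), Subtype.ext (cz_Sb.orth false false),
    Subtype.ext ?_, ?_, fun B _ t₁ t₂ h1 h2 h3 => ?_⟩
  · simpa [tg] using cz_Sb.sum
  · have := closure_tg Sb
    rwa [Bool.range_eq, Set.pair_comm] at this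
  · obtain ⟨φ, hφ⟩ := extend Sb (fun b => bif b then t₁ else t₂)
      (norm_ev_le (Cz.of h1 h2 h3))
    exact ⟨φ, hφ true, hφ false⟩

theorem cpap {ι : Type} [Fintype ι] (y : ι → H0 →L[ℂ] H0) (hy : ∀ i, y i ∈ gen Sb) {ε : ℝ}
    (hε : 0 < ε) : ∃ (K : Type) (_ : Fintype K) (e : K → H0) (r : K → H0 →L[ℂ] H0),
      Orthonormal ℂ e ∧ ∑ γ, r γ * star (r γ) = 1 ∧
      ∀ i, ‖∑ γ, ∑ γ', ⟪e γ, y i (e γ')⟫_ℂ • (r γ * star (r γ')) - y i‖ ≤ ε := by
  have h1 : ∀ i, ∃ w, dist (y i) (ev Sb w) < ε / 3 := fun i =>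
    Metric.mem_closure_range_iff.1 (mem_gen Sb (hy i)) _ (by positivity)
  choose w hw using h1
  choose l C hC using fun i => approx cz_Sb (w i)
  choose L hL using fun i => exists_small (C i) (show 0 < ε / 3 by positivity)
  have hl : ∀ i, l i ≤ ∑ i, l i := fun i =>
    single_le_sum (f := l) (fun _ _ => Nat.zero_le _) (mem_univ i)
  have hL' : ∀ i, L i < ∑ i, L i + 1 := fun i =>
    Nat.lt_succ_of_le (single_le_sum (f := L) (fun _ _ => Nat.zero_le _) (mem_univ i))
  refine ⟨Kw (∑ i, l i) (∑ i, L i + 1), inferInstance, _, _, orth_ew _ _,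
    sum_rw cz_Sb _ (by omega), fun i => ?_⟩
  change ‖Ps Sb _ _ (y i) - y i‖ ≤ ε
  have h1 := (hC i _ (hl i) _ (by omega)).trans (hL i _ (hL' i))
  have h2 := norm_Ps_le cz_Sb (∑ i, l i) (L := ∑ i, L i + 1) (by omega) (y i - ev Sb (w i))
  have h3 := hw i
  rw [dist_eq_norm] at h3
  have e : Ps Sb (∑ i, l i) (∑ i, L i + 1) (y i) - y i =
      Ps Sb (∑ i, l i) (∑ i, L i + 1) (y i - ev Sb (w i)) +
      (Ps Sb (∑ i, l i) (∑ i, L i + 1) (ev Sb (w i)) - ev Sb (w i)) - (y i - ev Sb (w i)) := by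
    rw [← add_sub_assoc, ← Ps_add, sub_add_cancel]
    abel
  rw [e]
  refine (norm_sub_le _ _).trans ((add_le_add_left (norm_add_le _ _) _).trans ?_)
  linarith

end Crest.Agent.H3.KE
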