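import Crest.Agent.H3.KE.Prop
import Crest.Agent.H3.KE.Cuntz

/-! The base level and the assembly. -/

namespace Crest.Agent.H3.KE

open Finset Filter Topology Crest.AnalysisR.CStarEmbedding
open scoped InnerProductSpace Pointwise

section
variable {H : Type} [NormedAddCommGroup H] [InnerProductSpace ℂ H]

theorem near_fixed (T : Fin 4 → H →L[ℂ] H) {ε : ℝ} (hε : 0 ≤ ε) (hε1 : ε ≤ 1 / 2)
    (hT : ∀ i, ‖T i‖ ≤ 1 + ε) (h : 5 - ε < ‖1 + ∑ i, T i‖) :
    ∃ v : H, v ≠ 0 ∧ ∀ i, ‖T i v - v‖ ^ 2 ≤ 20 * ε * ‖v‖ ^ 2 := by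
  obtain ⟨v, hv⟩ : ∃ v, (5 - ε) * ‖v‖ < ‖(1 + ∑ i, T i) v‖ := by
    by_contra hh
    push Not at hh
    exact absurd (ContinuousLinearMap.opNorm_le_bound _ (by linarith) hh) (not_le.2 h)
  refine ⟨v, by rintro rfl; simp at hv, fun i => ?_⟩
  have b : ∀ k, ‖T k v‖ ≤ (1 + ε) * ‖v‖ := fun k =>
    ((T k).le_opNorm v).trans (mul_le_mul_of_nonneg_right (hT k) (norm_nonneg _))
  have e : (1 + ∑ i, T i) v = (T i v + v) + ∑ k ∈ univ.erase i, T k v := by
    rw [← add_sum_erase _ _ (mem_univ i)]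
    simp [add_comm, add_left_comm]
  have c := (congrArg norm e).le.trans
    (norm_add_le_of_le le_rfl (norm_sum_le_of_le _ fun k _ => b k))
  rw [sum_const, card_erase_of_mem (mem_univ i), card_univ, Fintype.card_fin, nsmul_eq_mul] at c
  have p := parallelogram_law_with_norm ℂ (T i v) v
  have n := norm_nonneg v
  have d : (2 - 4 * ε) * ‖v‖ ≤ ‖T i v + v‖ := by
    norm_num at c
    simp only [ContinuousLinearMap.add_apply, ContinuousLinearMap.one_apply,
      ContinuousLinearMap.sum_apply] at hv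
    linarith
  have d2 := pow_le_pow_left₀ (mul_nonneg (by linarith) n) d 2
  have d3 := pow_le_pow_left₀ (norm_nonneg _) (b i) 2
  nlinarith [mul_nonneg (sq_nonneg ε) (sq_nonneg ‖v‖)]

/-- the coefficients -/
noncomputable def cf (i : Fin 4) : ℂ := if i = 3 then ψ 1 else 1

theorem norm_cf (i : Fin 4) : ‖cf i‖ = 1 := by
  unfold cf
  split_ifs
  · exact AddChar.norm_apply _ _
  · exact norm_one

theorem level_zero (y : Fin 4 → H →L[ℂ] H) {v : H} (hv : v ≠ 0) {δ : ℝ}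
    (h : ∀ i, ‖cf i • y i v - v‖ ≤ δ * ‖v‖) :
    ∃ ξ : PP (Cj 0) H, ξ ≠ 0 ∧ ∀ i, ‖(act 0).op (mg i) (y i) ξ - ξ‖ ≤ δ * ‖ξ‖ := by
  classical
  let c₀ : Cj 0 := ⟨fun n => if n = 0 then 1 else 0, by simp, fun n hn => if_neg hn.ne'⟩
  have hh : ∀ i (c : Cj 0), (act 0).h (mg i) c = c := by
    intro i c
    by_cases hi : i = 3
    · rw [hi, act_h3]
    · refine Subtype.ext (funext fun n => ?_)
      rw [act_h hi]
      simp [c.2.2 (n + 1) (by omega)]
  have hθ : ∀ i, (act 0).θ (mg i) c₀ = cf i := by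
    intro i
    by_cases hi : i = 3
    · rw [hi, act_θ3]
      rfl
    · rw [act_θ hi, cf, if_neg hi]
  refine ⟨PiLp.single 2 c₀ v, by simpa using hv, fun i => ?_⟩
  have : (act 0).op (mg i) (y i) (PiLp.single 2 c₀ v) - PiLp.single 2 c₀ v =
      (PiLp.single 2 c₀ (cf i • y i v - v) : PP (Cj 0) H) := by
    ext c
    by_cases hc : c = c₀
    · simp [hc, hh, hθ]
    · simp [hc, hh]
  rw [this]
  simpa using h i

end

theorem five_le {A : Type} [CStarAlgebra A] {u : Lam →* unitary A} (hu : IsFullGroupCStar A u) :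
    5 ≤ ‖1 + ∑ i, cf i • (u (xg i) : A)‖ := by
  classical
  obtain ⟨w, hw⟩ := exists_perm_rep Lam (Set Ma)
  obtain ⟨π, hπ⟩ := hu.2 _ w
  let v : L2 (Set Ma) := ∑ a, ψ a • dl (Sa a)
  have hv : ∀ i, cf i • (w (xg i) : L2 (Set Ma) →L[ℂ] L2 (Set Ma)) v = v := by
    intro i
    simp only [v, map_sum, map_smul, hw]
    by_cases hi : i = 3
    · subst hi
      rw [smul_sum, ← Equiv.sum_comp (Equiv.addRight (1 : F17)) fun a => ψ a • dl (Sa a)]
      refine sum_congr rfl fun a _ => ?_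
      rw [smul_Sa3, smul_smul, cf, if_pos rfl, ← AddChar.map_add_eq_mul, add_comm]
      rfl
    · simp [cf, hi, smul_Sa hi]
  have h0 : v ≠ 0 := fun h => by
    have := congrArg (fun z => ⟪dl (Sa 0), z⟫_ℂ) h
    simp [v, inner_sum, inner_smul_right, inner_dl_dl, Sa_inj.eq_iff] at this
  have h1 : π (1 + ∑ i, cf i • (u (xg i) : A)) v = (5 : ℂ) • v := by
    simp only [map_add, map_one, map_sum, map_smul, hπ, ContinuousLinearMap.add_apply,
      ContinuousLinearMap.sum_apply, ContinuousLinearMap.smul_apply, hv,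
      ContinuousLinearMap.one_apply, sum_const, card_univ, Fintype.card_fin]
    module
  have h2 := (π (1 + ∑ i, cf i • (u (xg i) : A))).le_opNorm v
  rw [h1, norm_smul] at h2
  have h3 := le_of_mul_le_mul_right h2 (norm_pos_iff.2 h0)
  simpa using h3.trans (NonUnitalStarAlgHom.norm_apply_le π _)

/-- the obstruction on a single level -/
def NoAll : Prop := ∃ δ > (0 : ℝ), ∀ y : Fin 4 → H0 →L[ℂ] H0, (∀ i, y i ∈ gen Sb) →
    (∀ i, ‖y i‖ ≤ 1 + δ) → ¬ ∀ j, ∃ ξ : PP (Cj j) H0, ξ ≠ 0 ∧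
      ∀ i, ‖(act j).op (mg i) (y i) ξ - ξ‖ ≤ δ * ‖ξ‖

theorem core (hno : NoAll) (F : Filter ℕ) [F.NeBot] (T : ℕ → Lam → H0 →L[ℂ] H0)
    (hT : ∀ n g, T n g ∈ gen Sb) (hb : ∀ g, ∃ C, ∀ n, ‖T n g‖ ≤ C)
    (hm : ∀ g h, Tendsto (fun n => ‖T n (g * h) - T n g * T n h‖) F (𝓝 0))
    (h1 : Tendsto (fun n => ‖T n 1 - 1‖) F (𝓝 0))
    (hs : ∀ g, Tendsto (fun n => ‖star (T n g) - T n g⁻¹‖) F (𝓝 0))
    (hn : ∀ g, ∀ ε > 0, ∀ᶠ n in F, ‖T n g‖ ≤ 1 + ε)
    (h5 : ∀ ε > 0, ∀ᶠ n in F, 5 - ε < ‖1 + ∑ i, cf i • T n (xg i)‖) : False := by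
  classical
  obtain ⟨δ₁, hδ₁, hno⟩ := hno
  obtain ⟨δ₀, hδ₀, hr⟩ := reset (K := fun p : ℕ × ℕ => PP (Cj p.2) H0) (F := F.comap Prod.fst)
    gen_xx (fun p g => (act p.2).op g.2 (T p.1 g.1))
    (fun g => (hb g.1).imp fun C hC p => ((act p.2).norm_op_le _ _).trans (hC p.1))
    (fun g h => squeeze_zero (fun _ => norm_nonneg _) (fun p => by
      rw [← (act p.2).op_mul, Prod.snd_mul, MA.op_sub]
      exact (act p.2).norm_op_le _ _) ((hm g.1 h.1).comp tendsto_comap))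
    (squeeze_zero (fun _ => norm_nonneg _) (fun p => by
      rw [← (act p.2).op_one, Prod.snd_one, MA.op_sub]
      exact (act p.2).norm_op_le _ _) (h1.comp tendsto_comap))
    (fun g => squeeze_zero (fun _ => norm_nonneg _) (fun p => by
      rw [MA.star_op, Prod.snd_inv, MA.op_sub]
      exact (act p.2).norm_op_le _ _) ((hs g.1).comp tendsto_comap))
  set δ := min δ₁ (δ₀ / 1020) with hδ
  have hδ0 : 0 < δ := lt_min hδ₁ (by positivity)
  have e0 := eventually_comap.1 (hr δ hδ0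
    (univ.image xx ∪ univ.image fun p : Fin 4 × F17 => cγ p.1 p.2) fun g hg => by
      simp only [mem_union, mem_image, mem_univ, true_and] at hg
      rcases hg with ⟨i, rfl⟩ | ⟨p, rfl⟩
      · exact Subgroup.subset_closure ⟨i, rfl⟩
      · exact cγ_mem _ _)
  set ε := min (min δ₁ (1 / 2)) (δ₀ ^ 2 / 20) with hε
  have hε0 : 0 < ε := lt_min (lt_min hδ₁ one_half_pos) (by positivity)
  have sm : ∀ {f : ℕ → ℝ}, Tendsto f F (𝓝 0) → ∀ η > 0, ∀ᶠ n in F, f n ≤ η := fun h η hη =>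
    (h.eventually (gt_mem_nhds hη)).mono fun _ => le_of_lt
  have e1 : ∀ᶠ n in F, ∀ i k, ‖T n (xg i) * T n (ak k) - T n (ak (kk i k)) * T n (cγ i k).1‖ ≤ δ := by
    refine eventually_all.2 fun i => eventually_all.2 fun k => ?_
    filter_upwards [sm (hm (xg i) (ak k)) (δ / 2) (by positivity),
      sm (hm (ak (kk i k)) (cγ i k).1) (δ / 2) (by positivity)] with n a b
    rw [norm_sub_rev, key] at a
    linarith [norm_sub_le_norm_sub_add_norm_sub (T n (xg i) * T n (ak k))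
      (T n (ak (kk i k) * (cγ i k).1)) (T n (ak (kk i k)) * T n (cγ i k).1)]
  have e2 : ∀ᶠ n in F, ‖1 - T n (ak 0)⁻¹ * T n (ak 0)‖ ≤ 1 / 2 := by
    filter_upwards [sm (hm (ak 0)⁻¹ (ak 0)) (1 / 4) (by positivity), sm h1 (1 / 4) (by positivity)]
      with n a b
    rw [inv_mul_cancel] at a
    rw [norm_sub_rev] at b
    linarith [norm_sub_le_norm_sub_add_norm_sub 1 (T n 1) (T n (ak 0)⁻¹ * T n (ak 0))]
  obtain ⟨n, f0, f1, f2, f3, f4, f5, f6⟩ := (e0.and (e1.and (e2.and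
    ((eventually_all.2 fun k => hn (ak k) 1 one_pos).and ((hn (ak 0)⁻¹ 1 one_pos).and
    ((eventually_all.2 fun i => hn (xg i) ε hε0).and (h5 ε hε0))))))).exists
  have Q : ∀ j, ∃ ξ : PP (Cj j) H0, ξ ≠ 0 ∧
      ∀ i, ‖(act j).op (mg i) (T n (xg i)) ξ - ξ‖ ≤ δ₀ * ‖ξ‖ := by
    intro j
    induction j with
    | zero =>
      obtain ⟨v, hv, h⟩ := near_fixed (fun i => cf i • T n (xg i)) hε0.le
        ((min_le_left _ _).trans (min_le_right _ _))
        (fun i => by rw [norm_smul, norm_cf, one_mul]; exact f5 i) f6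
      refine level_zero _ hv fun i => (pow_le_pow_iff_left₀ (by positivity) (by positivity)
        two_ne_zero).1 ((h i).trans ?_)
      rw [mul_pow]
      gcongr
      linarith [min_le_right (min δ₁ (1 / 2)) (δ₀ ^ 2 / 20)]
    | succ j ih =>
      obtain ⟨ξ, h0, hξ⟩ := f0 (n, j) rfl ih
      obtain ⟨ζ, g0, g⟩ := propagate (T n) hδ0.le (fun k => (f3 k).trans (by norm_num))
        (f4.trans (by norm_num)) f2 f1 h0 fun i k => hξ _ (mem_union_right _
          (mem_image.2 ⟨(i, k), mem_univ _, rfl⟩))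
      refine ⟨ζ, g0, fun i => (g i).trans ?_⟩
      gcongr
      linarith [min_le_right δ₁ (δ₀ / 1020)]
  refine hno (fun i => T n (xg i)) (fun i => hT _ _) (fun i => (f5 i).trans ?_) fun j => ?_
  · linarith [(min_le_left (min δ₁ (1 / 2)) (δ₀ ^ 2 / 20)).trans (min_le_left _ _)]
  · obtain ⟨ξ, h0, hξ⟩ := f0 (n, j) rfl (Q j)
    refine ⟨ξ, h0, fun i => (hξ _ (mem_union_left _ (mem_image.2 ⟨i, mem_univ _, rfl⟩))).trans ?_⟩
    gcongr
    exact min_le_left _ _

theorem no_embedding (hno : NoAll) {A : Type} [CStarAlgebra A] {u : Lam →* unitary A}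
    (hu : IsFullGroupCStar A u) (ω : Ultrafilter ℕ) (φ : ℕ → A → gen Sb) :
    ¬ IsUltrapowerEmbedding ω A (gen Sb) φ := by
  rintro ⟨hb, ha, hc, hm, hs, h1, hn⟩
  have h5 := five_le hu
  refine core hno ω (fun n g => (φ n (u g)).1) (fun n g => (φ n (u g)).2) (fun g => hb _)
    (fun g h => ?_) ?_ (fun g => ?_) (fun g ε hε => ?_) (fun ε hε => ?_)
  · rw [map_mul]
    exact hm _ _
  · rw [map_one]
    exact h1
  · rw [map_inv]
    exact (hs _).congr fun n => norm_sub_rev _ _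
  · have : ‖(u g : A)‖ < 1 + ε := by
      rcases subsingleton_or_nontrivial A with h | h
      · rw [Subsingleton.elim (u g : A) 0, norm_zero]
        positivity
      · rw [CStarRing.norm_coe_unitary]
        linarith
    exact ((hn _).eventually (gt_mem_nhds this)).mono fun _ => le_of_lt
  · let N : (ℕ → gen Sb) → (ℕ → gen Sb) → Prop := fun a b =>
      Tendsto (fun n => ‖a n - b n‖) (ω : Filter ℕ) (𝓝 0)
    have tr : ∀ {a b c}, N a b → N b c → N a c := fun {a b c} h h' =>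
      squeeze_zero (fun _ => norm_nonneg _) (fun i => norm_sub_le_norm_sub_add_norm_sub _ (b i) _)
        (by simpa using h.add h')
    have ad : ∀ {x y : A} {a b}, N (φ · x) a → N (φ · y) b → N (φ · (x + y)) fun n => a n + b n :=
      fun {x y a b} h h' => tr (ha x y) (squeeze_zero (fun _ => norm_nonneg _)
        (g := fun n => ‖φ n x - a n‖ + ‖φ n y - b n‖) (fun n => by
        rw [add_sub_add_comm]
        exact norm_add_le _ _) (by simpa using h.add h'))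
    have e := ad h1 (ad (ad (ad (hc (cf 0) (u (xg 0))) (hc (cf 1) (u (xg 1))))
      (hc (cf 2) (u (xg 2)))) (hc (cf 3) (u (xg 3))))
    rw [Fin.sum_univ_four] at h5
    filter_upwards [e.eventually (gt_mem_nhds (half_pos hε)),
      (hn _).eventually (lt_mem_nhds (show 5 - ε / 2 < _ from lt_of_lt_of_le (by linarith) h5))]
      with n f1 f2
    rw [Fin.sum_univ_four]
    have f3 := (norm_sub_norm_le _ _).trans_lt f1
    have f4 : 5 - ε < ‖1 + (cf 0 • φ n (u (xg 0)) + cf 1 • φ n (u (xg 1)) + cf 2 • φ n (u (xg 2)) +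
      cf 3 • φ n (u (xg 3)))‖ := by linarith
    exact f4

theorem result_of (hno : NoAll) :
    ∃ (Γ : Type) (_ : Group Γ) (_ : Countable Γ) (A : Type) (_ : CStarAlgebra A) (u : Γ →* unitary A),
      IsFullGroupCStar A u ∧
      ∃ (O : Type) (_ : CStarAlgebra O) (s₁ s₂ : O), IsCuntzTwo O s₁ s₂ ∧
        ∀ ω : Ultrafilter ℕ, (∀ n : ℕ, (ω : Filter ℕ) ≠ pure n) →
          ¬ ∃ φ : ℕ → A → O, IsUltrapowerEmbedding ω A O φ := by
  obtain ⟨A, _, u, hu⟩ := exists_full Lam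
  exact ⟨Lam, inferInstance, inferInstance, A, inferInstance, u, hu, gen Sb, inferInstance, _, _,
    isCuntz, fun ω _ ⟨φ, hφ⟩ => no_embedding hno hu ω φ hφ⟩

end Crest.Agent.H3.KE
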