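import Crest.Agent.H3.KE.Model

/-! Invariant vectors: the spectral gap in finite dimensions and the shape of invariant matrices. -/

namespace Crest.Agent.H3.KE

open Finset
open scoped InnerProductSpace

theorem HB {G : Type} [Group G] {x : Fin 4 → G} (hx : Gen x) : ∃ C > (0 : ℝ),
    ∀ (E : Type) [NormedAddCommGroup E] [InnerProductSpace ℂ E] [CompleteSpace E]
      [FiniteDimensional ℂ E] (U : G →* (E →L[ℂ] E)), (∀ g, star (U g) = U g⁻¹) → ∀ Z : E,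
      ∃ Z₀ : E, (∀ i, U (x i) Z₀ = Z₀) ∧ ⟪Z₀, Z - Z₀⟫_ℂ = 0 ∧
        ‖Z - Z₀‖ ^ 2 ≤ C * ∑ i, ‖U (x i) Z - Z‖ ^ 2 := by
  obtain ⟨C, hC, hDL⟩ := Dl_le hx
  refine ⟨4 * C, by positivity, fun E _ _ _ _ U hU Z => ?_⟩
  set D := Dl U x with hD
  have hs : ∀ a b, ⟪D a, b⟫_ℂ = ⟪a, D b⟫_ℂ := fun a b => by
    rw [← ContinuousLinearMap.adjoint_inner_right, ← ContinuousLinearMap.star_eq_adjoint,
      star_Dl hU hx]
  have qL : ∀ ξ, qf (Ll U x) ξ = ∑ i, ‖U (x i) ξ - ξ‖ ^ 2 := fun ξ => by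
    rw [Ll, qf_sum]
    exact sum_congr rfl fun i _ => qf_sq _ _
  have q4 : ∀ ξ, ∑ i, ‖U (x i) ξ - ξ‖ ^ 2 ≤ 4 * qf D ξ := fun ξ => by
    have := (Ll_le hU hx).qf_nonneg ξ
    rw [qf_sub, qL, show (4 : ℂ) = ((4 : ℝ) : ℂ) by norm_num, qf_smul] at this
    linarith
  have q0 : ∀ ξ, 0 ≤ qf D ξ := fun ξ => by
    have : 0 ≤ ∑ i, ‖U (x i) ξ - ξ‖ ^ 2 := by positivity
    linarith [q4 ξ]
  obtain ⟨_, ⟨w, rfl⟩, Z₀, hZ, rfl⟩ :=
    (LinearMap.range (D : E →ₗ[ℂ] E)).exists_add_mem_mem_orthogonal Z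
  have o : ∀ a, ⟪D a, Z₀⟫_ℂ = 0 := fun a => hZ _ ⟨a, rfl⟩
  have h0 : D Z₀ = 0 := inner_self_eq_zero.1 (by rw [← hs, o])
  refine ⟨Z₀, fun i => ?_, ?_, ?_⟩
  · have h1 := q4 Z₀
    rw [qf, h0, inner_zero_left, Complex.zero_re, mul_zero] at h1
    have h2 := (single_le_sum (f := fun i => ‖U (x i) Z₀ - Z₀‖ ^ 2) (fun _ _ => by positivity)
      (mem_univ i)).trans h1
    exact sub_eq_zero.1 (norm_eq_zero.1 (pow_eq_zero_iff two_ne_zero |>.1
      (le_antisymm h2 (by positivity))))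
  · rw [add_sub_cancel_right, ← inner_conj_symm]
    exact (congrArg _ (o w)).trans (map_zero _)
  · change ‖D w + Z₀ - Z₀‖ ^ 2 ≤ 4 * C * ∑ i, ‖U (x i) (D w + Z₀) - (D w + Z₀)‖ ^ 2
    have a1 := (hDL _ U hU).qf_nonneg (D w + Z₀)
    rw [qf_sub, qf_smul, qL] at a1
    have a2 : qf D (D w + Z₀) = qf D (D w) := by
      simp only [qf, map_add, h0, add_zero, inner_add_right, o]
    have a3 := (gap hU hx).qf_nonneg w
    rw [qf_sub, show (1 / 4 : ℂ) = ((1 / 4 : ℝ) : ℂ) by norm_num, qf_smul] at a3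
    have a4 : qf (D * D) w = ‖D w‖ ^ 2 := by
      rw [← qf_sq, star_Dl hU hx]
    have a5 := q0 (D w - ((1 / 4 : ℝ) : ℂ) • w)
    have a6 : qf D (D w - ((1 / 4 : ℝ) : ℂ) • w) =
        qf D (D w) - 1 / 2 * ‖D w‖ ^ 2 + 1 / 16 * qf D w := by
      have b : ⟪D (D w), w⟫_ℂ = ⟪D w, D w⟫_ℂ := hs _ _
      have c : (⟪D w, D w⟫_ℂ).re = ‖D w‖ ^ 2 := by
        simp [inner_self_eq_norm_sq_to_K, ← Complex.ofReal_pow]
      simp only [qf, map_sub, map_smul, inner_sub_left, inner_sub_right, inner_smul_left,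
        inner_smul_right, b, Complex.sub_re, Complex.conj_ofReal, Complex.re_ofReal_mul, c]
      ring
    rw [add_sub_cancel_right]
    rw [← hD] at a1 a3
    linarith

theorem HC (M : ℕ) (Z : PP (Cj (3 * M) × Cj (3 * M)) ℂ)
    (h : ∀ i, (act (3 * M)).ad.rep (mg i) Z = Z) :
    (∀ c c', c ≠ c' → Z (c, c') = 0) ∧ ∀ c, M * ‖Z (c, c)‖ ^ 2 ≤ ‖Z‖ ^ 2 := by
  have e : ∀ i c c', (act (3 * M)).θ (mg i) c * (starRingEnd ℂ) ((act (3 * M)).θ (mg i) c') *
      Z ((act (3 * M)).h (mg i) c, (act (3 * M)).h (mg i) c') = Z (c, c') := fun i c c' =>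
    congrArg (fun W : PP (Cj (3 * M) × Cj (3 * M)) ℂ => W (c, c')) (h i)
  have e' : ∀ r < 3, ∀ c c' : Cj (3 * M), Z (⟨c.1 + Es r 1 c.1, top_add one_pos c.2⟩,
      ⟨c'.1 + Es r 1 c'.1, top_add one_pos c'.2⟩) = Z (c, c') := by
    intro r hr c c'
    have hi : (⟨r, by omega⟩ : Fin 4) ≠ 3 := fun h => by
      have := congrArg Fin.val h
      simp at this
      omega
    rw [← e ⟨r, by omega⟩ c c', act_θ hi, act_θ hi, map_one, one_mul, one_mul]
    have : ∀ c : Cj (3 * M), (act (3 * M)).h (mg ⟨r, by omega⟩) c =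
        ⟨c.1 + Es r 1 c.1, top_add one_pos c.2⟩ := fun c => Subtype.ext (act_h hi c)
    rw [this, this]
  constructor
  · have key : ∀ n (c c' : Cj (3 * M)), Z (c, c') ≠ 0 → c.1 n = c'.1 n := by
      intro n
      induction n with
      | zero =>
        intro c c' hz
        have h1 := e 3 c c'
        rw [act_h3, act_h3, act_θ3, act_θ3] at h1
        have h2 := mul_right_cancel₀ hz (h1.trans (one_mul _).symm)
        have h3 : ψ (c'.1 0) * (starRingEnd ℂ) (ψ (c'.1 0)) = 1 := by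
          rw [Complex.mul_conj, Complex.normSq_eq_norm_sq, AddChar.norm_apply]
          simp
        exact ZMod.injective_stdAddChar
          (mul_right_cancel₀ (right_ne_zero_of_mul_eq_one h3) (h2.trans h3.symm))
      | succ n ih =>
        intro c c' hz
        have h1 := ih _ _ ((e' (n % 3) (Nat.mod_lt _ (by omega)) c c').trans_ne hz)
        simpa [ih c c' hz] using h1
    intro c c' hc
    by_contra hz
    exact hc (Subtype.ext (funext fun n => key n c c' hz))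
  · intro c
    refine (orbit_big M (fun c => ‖Z (c, c)‖ ^ 2) (fun _ => by positivity)
      (fun r hr c => by rw [e' r hr]) c).trans ?_
    rw [PiLp.norm_sq_eq_of_L2, Fintype.sum_prod_type]
    exact sum_le_sum fun c _ => single_le_sum (f := fun c' => ‖Z (c, c')‖ ^ 2)
      (fun _ _ => by positivity) (mem_univ c)

end Crest.Agent.H3.KE
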