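import Crest.Agent.H3.KE.Core
import Crest.Agent.H3.KE.HB

/-! The obstruction on a single high level. -/

namespace Crest.Agent.H3.KE

open Finset
open scoped InnerProductSpace

section
variable {G C H K : Type} [Group G] (A : MA G C) [Fintype C] [Fintype K] [NormedAddCommGroup H]
  [InnerProductSpace ℂ H] [CompleteSpace H]

theorem F1 (r : K → H →L[ℂ] H) (ξ : PP C H) : ∃ T : C × K → K → PP C ℂ, ∀ g (a : K → K → ℂ),
    ∑ p, ∑ γ, ∑ γ', a γ γ' * ⟪T p γ, A.rep g (T p γ')⟫_ℂ =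
      ⟪ξ, A.op g (∑ γ, ∑ γ', a γ γ' • (r γ * star (r γ'))) ξ⟫_ℂ := by
  obtain ⟨V, hV⟩ := gram_factor fun q : C × K => star (r q.2) (ξ q.1)
  refine ⟨fun p γ => WithLp.toLp 2 fun c => V p (c, γ), fun g a => ?_⟩
  have e : ∀ c c' γ γ', ⟪ξ c, r γ (star (r γ') (ξ c'))⟫_ℂ =
      ∑ p, (starRingEnd ℂ) (V p (c, γ)) * V p (c', γ') := fun c c' γ γ' => by
    rw [← hV, ← ContinuousLinearMap.adjoint_inner_left]
    rfl
  have e2 : ∀ (v w : PP C ℂ), ⟪v, A.rep g w⟫_ℂ = ∑ c, A.θ g c * ((starRingEnd ℂ) (v c) * w (A.h g c)) :=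
    fun v w => by
      rw [PiLp.inner_apply]
      refine sum_congr rfl fun c _ => ?_
      change ⟪v c, A.θ g c • w (A.h g c)⟫_ℂ = _
      simp [mul_comm, mul_left_comm, mul_assoc]
  simp only [e2, PiLp.inner_apply ξ, MA.op_apply, ContinuousLinearMap.sum_apply,
    ContinuousLinearMap.smul_apply, ContinuousLinearMap.mul_apply, inner_smul_right, inner_sum, e,
    mul_sum]
  rw [sum_comm]
  refine Eq.trans ?_ sum_comm
  refine sum_congr rfl fun γ _ => sum_comm.trans (Eq.trans ?_ sum_comm)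
  refine sum_congr rfl fun γ' _ => sum_comm.trans ?_
  refine sum_congr rfl fun c _ => sum_congr rfl fun p _ => ?_
  ring

theorem F2 (z : K → PP C ℂ) : ∃ Z : PP (C × C) ℂ,
    (∀ g, ⟪Z, A.ad.rep g Z⟫_ℂ = ((∑ i, ∑ i', ‖⟪z i, A.rep g (z i')⟫_ℂ‖ ^ 2 : ℝ) : ℂ)) ∧
      ∑ c, ‖Z (c, c)‖ ≤ ∑ i, ‖z i‖ ^ 2 := by
  refine ⟨WithLp.toLp 2 fun p => ∑ i, z i p.1 * (starRingEnd ℂ) (z i p.2), fun g => ?_, ?_⟩
  · have e2 : ∀ {C : Type} [Fintype C] (A : MA G C) (v w : PP C ℂ), ⟪v, A.rep g w⟫_ℂ =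
        ∑ c, A.θ g c * ((starRingEnd ℂ) (v c) * w (A.h g c)) := fun A v w => by
      rw [PiLp.inner_apply]
      refine sum_congr rfl fun c _ => ?_
      change ⟪v c, A.θ g c • w (A.h g c)⟫_ℂ = _
      simp [mul_comm, mul_left_comm, mul_assoc]
    push_cast
    simp only [← Complex.mul_conj', e2, Fintype.sum_prod_type, MA.ad, map_sum, map_mul,
      Complex.conj_conj, sum_mul_sum]
    simp only [mul_sum]
    refine (sum_congr rfl fun c _ => sum_comm).trans (sum_comm.trans ?_)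
    refine sum_congr rfl fun i _ => ?_
    refine (sum_congr rfl fun c _ => sum_comm).trans (sum_comm.trans ?_)
    refine sum_congr rfl fun i' _ => sum_congr rfl fun c _ => sum_congr rfl fun c' _ => ?_
    ring
  · simp only [PiLp.norm_sq_eq_of_L2]
    rw [sum_comm]
    refine sum_le_sum fun c _ => norm_sum_le_of_le _ fun i _ => ?_
    simp [sq]

end

/-- Haagerup's factorisation lemma -/
def HAs : Prop := ∀ (K E : Type) [Fintype K] [NormedAddCommGroup E] [InnerProductSpace ℂ E]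
    (e : K → H0), Orthonormal ℂ e → ∀ T : K → E,
    ∃ z : K → E, ∑ i, ∑ i', ‖⟪z i, z i'⟫_ℂ‖ ^ 2 = ∑ γ, ‖T γ‖ ^ 2 ∧
      ∀ (y : H0 →L[ℂ] H0) (σ : E →L[ℂ] E),
        ‖∑ γ, ∑ γ', ⟪e γ, y (e γ')⟫_ℂ * ⟪T γ, σ (T γ')⟫_ℂ‖ ^ 2 ≤
          ‖y‖ ^ 2 * (∑ γ, ‖T γ‖ ^ 2) * ∑ i, ∑ i', ‖⟪z i, σ (z i')⟫_ℂ‖ ^ 2

theorem F3 (hHA : HAs) {G C K : Type} [Group G] (A : MA G C) [Fintype C] [Fintype K] (x : Fin 4 → G)
    {δ : ℝ} (hδ0 : 0 < δ) (hδ1 : δ ≤ 1 / 24) {y : Fin 4 → H0 →L[ℂ] H0} (hn : ∀ i, ‖y i‖ ≤ 1 + δ)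
    {e : K → H0} (he : Orthonormal ℂ e) {r : K → H0 →L[ℂ] H0} (hr : ∑ γ, r γ * star (r γ) = 1)
    (hy : ∀ i, ‖∑ γ, ∑ γ', ⟪e γ, y i (e γ')⟫_ℂ • (r γ * star (r γ')) - y i‖ ≤ δ)
    {ξ : PP C H0} (h0 : ξ ≠ 0) (hξ : ∀ i, ‖A.op (x i) (y i) ξ - ξ‖ ≤ δ * ‖ξ‖) :
    ∃ Z : PP (C × C) ℂ, 0 < ‖Z‖ ^ 2 ∧ (∀ k, ‖A.ad.rep (x k) Z - Z‖ ^ 2 ≤ 52 * δ * ‖Z‖ ^ 2) ∧
      (∑ c, ‖Z (c, c)‖) ^ 2 ≤ Fintype.card K * ‖Z‖ ^ 2 := by
  classical
  obtain ⟨T, hT⟩ := F1 A r ξ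
  have n0 : 0 < ‖ξ‖ ^ 2 := by positivity
  have a1 : ∑ p, ∑ γ, ‖T p γ‖ ^ 2 = ‖ξ‖ ^ 2 := by
    have := hT 1 fun γ γ' => if γ = γ' then 1 else 0
    simp only [ite_mul, one_mul, zero_mul, sum_ite_eq, mem_univ, if_true, ite_smul, one_smul,
      zero_smul, hr, map_one, MA.op_one, ContinuousLinearMap.one_apply,
      inner_self_eq_norm_sq_to_K] at this
    exact_mod_cast this
  let f : C × K → Fin 4 → ℂ := fun p i =>
    ∑ γ, ∑ γ', ⟪e γ, y i (e γ')⟫_ℂ * ⟪T p γ, A.rep (x i) (T p γ')⟫_ℂ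
  have a2 : ∀ i, (1 - 2 * δ) * ‖ξ‖ ^ 2 ≤ ∑ p, (f p i).re := fun i => by
    rw [← Complex.re_sum, hT]
    set Y := ∑ γ, ∑ γ', ⟪e γ, y i (e γ')⟫_ℂ • (r γ * star (r γ'))
    have b1 : ‖A.op (x i) Y ξ - A.op (x i) (y i) ξ‖ ≤ δ * ‖ξ‖ := by
      rw [← ContinuousLinearMap.sub_apply, MA.op_sub]
      exact (A.norm_op_apply_le _ _ _).trans (mul_le_mul_of_nonneg_right (hy i) (norm_nonneg _))
    have b2 := (norm_sub_le_norm_sub_add_norm_sub _ _ _).trans (add_le_add b1 (hξ i))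
    have b3 := (abs_le.1 ((Complex.abs_re_le_norm _).trans ((norm_inner_le_norm ξ _).trans
      (mul_le_mul_of_nonneg_left b2 (norm_nonneg ξ))))).1
    rw [inner_sub_right, Complex.sub_re, inner_self_eq_norm_sq_to_K] at b3
    have b4 : ((‖ξ‖ : ℂ) ^ 2).re = ‖ξ‖ ^ 2 := by rw [← Complex.ofReal_pow, Complex.ofReal_re]
    have b5 : -(‖ξ‖ * (δ * ‖ξ‖ + δ * ‖ξ‖)) ≤ (⟪ξ, A.op (x i) Y ξ⟫_ℂ).re - ‖ξ‖ ^ 2 := b4 ▸ b3
    linarith
  obtain ⟨p, -, hp⟩ : ∃ p ∈ univ, (4 - 9 * δ) * ∑ γ, ‖T p γ‖ ^ 2 < ∑ i, (f p i).re := by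
    refine exists_lt_of_sum_lt ?_
    rw [← mul_sum, a1, sum_comm]
    have := sum_le_sum fun i (_ : i ∈ univ) => a2 i
    rw [sum_const, card_univ, Fintype.card_fin, nsmul_eq_mul] at this
    refine lt_of_lt_of_le ?_ this
    push_cast
    nlinarith
  obtain ⟨z, hz, hz'⟩ := hHA K _ e he (T p)
  obtain ⟨Z, hZ, hZ'⟩ := F2 A z
  set N := ∑ γ, ‖T p γ‖ ^ 2 with hN
  have N0 : 0 ≤ N := sum_nonneg fun _ _ => sq_nonneg _
  have a3 : ‖Z‖ ^ 2 = N := by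
    have := hZ 1
    simp only [map_one, ContinuousLinearMap.one_apply, inner_self_eq_norm_sq_to_K, hz] at this
    exact Complex.ofReal_injective (by rw [← this]; simp)
  have a4 : ∀ g, ‖A.ad.rep g Z‖ ≤ ‖Z‖ := fun g => (A.ad.norm_op_apply_le g 1 Z).trans
    (mul_le_of_le_one_left (norm_nonneg _) ContinuousLinearMap.norm_id_le)
  set q : Fin 4 → ℝ := fun k => ∑ i, ∑ i', ‖⟪z i, A.rep (x k) (z i')⟫_ℂ‖ ^ 2 with hq
  have a5 : ∀ k, (⟪Z, A.ad.rep (x k) Z⟫_ℂ).re = q k := fun k => by rw [hZ, Complex.ofReal_re]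
  have a6 : ∀ k, q k ≤ N := fun k => by
    rw [← a5, ← a3, sq]
    exact (Complex.re_le_norm _).trans ((norm_inner_le_norm _ _).trans
      (mul_le_mul_of_nonneg_left (a4 _) (norm_nonneg _)))
  have a7 : ∀ k, (f p k).re ^ 2 ≤ (1 + δ) ^ 2 * N * q k := fun k => by
    refine le_trans ?_ ((hz' (y k) (A.rep (x k))).trans ?_)
    · rw [← sq_abs]
      exact pow_le_pow_left₀ (abs_nonneg _) (Complex.abs_re_le_norm _) 2
    · exact mul_le_mul_of_nonneg_right (mul_le_mul_of_nonneg_right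
        (pow_le_pow_left₀ (norm_nonneg _) (hn k) 2) N0)
        (sum_nonneg fun _ _ => sum_nonneg fun _ _ => sq_nonneg _)
  clear_value N q
  have a8 : ∀ k, (f p k).re ≤ (1 + δ) * N := fun k => by
    refine le_of_sq_le_sq ?_ (by positivity)
    refine (a7 k).trans ?_
    rw [mul_pow, sq N, mul_assoc]
    gcongr
    exact a6 k
  have N1 : 0 < N := by
    have := sum_le_sum fun k (_ : k ∈ univ) => a8 k
    rw [sum_const, card_univ, Fintype.card_fin, nsmul_eq_mul] at this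
    refine N0.lt_of_ne' fun h => ?_
    rw [h] at this hp
    linarith
  have a9 : ∀ k, ‖A.ad.rep (x k) Z - Z‖ ^ 2 ≤ 52 * δ * N := fun k => by
    have b1 := sum_le_sum fun l (_ : l ∈ univ.erase k) => a8 l
    rw [sum_const, card_erase_of_mem (mem_univ k), card_univ, Fintype.card_fin, nsmul_eq_mul] at b1
    rw [← add_sum_erase _ _ (mem_univ k)] at hp
    have b2 : (1 - 12 * δ) * N ≤ (f p k).re := by
      norm_num at b1
      simp only [mem_univ, sum_erase_eq_sub] at hp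
      linarith
    have b3 := (pow_le_pow_left₀ (mul_nonneg (by linarith) N0) b2 2).trans (a7 k)
    have b4 : (1 - 26 * δ) * N ≤ q k := by
      have c1 : (1 - 12 * δ) ^ 2 * N ≤ (1 + δ) ^ 2 * q k :=
        le_of_mul_le_mul_left (by linarith) N1
      refine le_of_mul_le_mul_left (le_trans ?_ c1) (show 0 < (1 + δ) ^ 2 by positivity)
      rw [← mul_assoc]
      gcongr
      nlinarith [sq_nonneg δ, mul_nonneg hδ0.le (sq_nonneg δ)]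
    rw [norm_sub_rev, @norm_sub_sq ℂ, RCLike.re_to_complex, a5, a3]
    have := pow_le_pow_left₀ (norm_nonneg _) (a4 (x k)) 2
    linarith
  have c4 : (∑ i, ‖z i‖ ^ 2) ^ 2 ≤ Fintype.card K * N := by
    refine sq_sum_le_card_mul_sum_sq.trans ?_
    rw [card_univ, ← hz]
    gcongr with i
    refine le_trans (le_of_eq ?_) (single_le_sum (f := fun i' => ‖⟪z i, z i'⟫_ℂ‖ ^ 2)
      (fun _ _ => by positivity) (mem_univ i))
    simp [inner_self_eq_norm_sq_to_K]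
  exact ⟨Z, a3 ▸ N1, a3 ▸ a9, a3 ▸ (pow_le_pow_left₀ (by positivity) hZ' 2).trans c4⟩

theorem F4 {C : Type} [Fintype C] {Z Z₀ : PP (C × C) ℂ} {k : ℕ} (h0 : 0 < ‖Z‖ ^ 2)
    (h1 : (∑ c, ‖Z (c, c)‖) ^ 2 ≤ k * ‖Z‖ ^ 2) (i2 : ⟪Z₀, Z - Z₀⟫_ℂ = 0)
    (c1 : ‖Z - Z₀‖ ^ 2 ≤ ‖Z‖ ^ 2 / 2) (d1 : ∀ c c', c ≠ c' → Z₀ (c, c') = 0)
    (d2 : ∀ c, (2 * k + 1 : ℕ) * ‖Z₀ (c, c)‖ ^ 2 ≤ ‖Z₀‖ ^ 2) : False := by
  have c2 : ‖Z‖ ^ 2 / 2 ≤ ‖Z₀‖ ^ 2 := by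
    have := norm_add_sq_eq_norm_sq_add_norm_sq_of_inner_eq_zero _ _ i2
    rw [add_sub_cancel] at this
    linarith
  have M0 : (0 : ℝ) < (2 * k + 1 : ℕ) := by positivity
  have c3 : ‖Z₀‖ ^ 2 ≤ √(‖Z₀‖ ^ 2 / (2 * k + 1 : ℕ)) * ∑ c, ‖Z (c, c)‖ := by
    rw [inner_sub_right, sub_eq_zero, inner_self_eq_norm_sq_to_K] at i2
    have b1 : ‖Z₀‖ ^ 2 = ‖⟪Z₀, Z⟫_ℂ‖ := by rw [i2]; simp
    refine b1.le.trans ?_
    rw [PiLp.inner_apply, Fintype.sum_prod_type, mul_sum]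
    refine norm_sum_le_of_le _ fun c _ => ?_
    rw [sum_eq_single c (fun c' _ hc => by rw [d1 c c' hc.symm, inner_zero_left]) (by simp)]
    refine (norm_inner_le_norm _ _).trans (mul_le_mul_of_nonneg_right ?_ (norm_nonneg _))
    refine Real.le_sqrt_of_sq_le ?_
    rw [le_div_iff₀' M0]
    exact d2 c
  have c5 := pow_le_pow_left₀ (by positivity) c3 2
  rw [mul_pow, Real.sq_sqrt (by positivity)] at c5
  have c6 := c5.trans (mul_le_mul_of_nonneg_left h1 (by positivity))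
  rw [sq, div_mul_eq_mul_div, le_div_iff₀ M0, mul_assoc] at c6
  have c7 := le_of_mul_le_mul_left c6 (by linarith)
  have c8 := mul_le_mul_of_nonneg_right c2 M0.le
  push_cast at c7 c8
  linarith

theorem no_all_of (hHA : HAs) : NoAll := by
  obtain ⟨C, hC, hB⟩ := HB gen_mg
  refine ⟨min (1 / 24) (1 / (416 * C)), by positivity, fun y hy hn hall => ?_⟩
  set δ := min (1 / 24) (1 / (416 * C)) with hδ
  have hδ0 : 0 < δ := by positivity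
  have hδ1 : δ ≤ 1 / 24 := min_le_left _ _
  have hδ2 : C * (208 * δ) ≤ 1 / 2 := by
    have := (le_div_iff₀ (by positivity)).1 (min_le_right (1 / 24) (1 / (416 * C)))
    linarith
  clear_value δ
  obtain ⟨K, _, e, r, he, hr, hy⟩ := cpap y hy hδ0
  obtain ⟨ξ, h0, hξ⟩ := hall (3 * (2 * Fintype.card K + 1))
  obtain ⟨Z, z0, z1, z2⟩ := F3 hHA _ mg hδ0 hδ1 hn he hr hy h0 hξ
  obtain ⟨Z₀, i1, i2, i3⟩ := hB _ (act _).ad.rep (act _).ad.star_rep Z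
  obtain ⟨d1, d2⟩ := HC _ Z₀ i1
  refine F4 z0 z2 i2 ?_ d1 d2
  have := sum_le_sum fun k (_ : k ∈ univ) => z1 k
  rw [sum_const, card_univ, Fintype.card_fin, nsmul_eq_mul] at this
  have b := i3.trans (mul_le_mul_of_nonneg_left this hC.le)
  have b' := mul_le_mul_of_nonneg_right hδ2 z0.le
  push_cast at b
  linarith

end Crest.Agent.H3.KE
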