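import Crest.Agent.H3.KE.Alg

/-! Operators on `ℓ²(Y)` induced by injections; a Gram matrix positivity lemma. -/

namespace Crest.Agent.H3.KE

open Finset
open scoped InnerProductSpace

/-- `ℓ²(Y)` -/
abbrev L2 (Y : Type) : Type := lp (fun _ : Y => ℂ) 2

section
variable {Y Y' : Type}

open Classical in
/-- basis vectors -/
noncomputable def dl (y : Y) : L2 Y := lp.single 2 y 1

theorem inner_dl (y : Y) (v : L2 Y) : ⟪dl y, v⟫_ℂ = v y := by
  simp [dl, lp.inner_single_left]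

open Classical in
theorem inner_dl_dl (y y' : Y) : ⟪dl y, dl y'⟫_ℂ = if y = y' then 1 else 0 := by
  rw [inner_dl, dl, lp.single_apply, Pi.single_apply]

theorem orth_dl {f : Y → Y'} (hf : Function.Injective f) : Orthonormal ℂ fun y => dl (f y) := by
  classical
  rw [orthonormal_iff_ite]
  intro y y'
  rw [inner_dl_dl]
  simp [hf.eq_iff]

/-- the isometry induced by an injection -/
noncomputable def iso (f : Y → Y') (hf : Function.Injective f) : L2 Y →L[ℂ] L2 Y' :=
  (orth_dl hf).orthogonalFamily.linearIsometry.toContinuousLinearMap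

theorem iso_dl (f : Y → Y') (hf : Function.Injective f) (y : Y) : iso f hf (dl y) = dl (f y) := by
  classical
  have := (orth_dl hf).orthogonalFamily.linearIsometry_apply_single (i := y) 1
  simpa [iso, dl] using this

theorem ext_dl {F : Type} [NormedAddCommGroup F] [NormedSpace ℂ F] {S T : L2 Y →L[ℂ] F}
    (h : ∀ y, S (dl y) = T (dl y)) : S = T := by
  classical
  refine lp.ext_continuousLinearMap (by norm_num) fun y => ?_
  ext
  simpa [dl] using h y

theorem ext_inner {S T : L2 Y →L[ℂ] L2 Y'} (h : ∀ y y', ⟪dl y', S (dl y)⟫_ℂ = ⟪dl y', T (dl y)⟫_ℂ) :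
    S = T := by
  refine ext_dl fun y => lp.ext (funext fun y' => ?_)
  simpa only [inner_dl] using h y y'

/-- the permutation representation -/
theorem exists_perm_rep (G Y : Type) [Group G] [MulAction G Y] :
    ∃ w : G →* unitary (L2 Y →L[ℂ] L2 Y), ∀ g y, (w g : L2 Y →L[ℂ] L2 Y) (dl y) = dl (g • y) := by
  classical
  let T : G → L2 Y →L[ℂ] L2 Y := fun g => iso (g • ·) (MulAction.injective g)
  have hT : ∀ g y, T g (dl y) = dl (g • y) := fun g y => iso_dl _ _ _
  have T1 : T 1 = 1 := ext_dl fun y => by simp [hT]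
  have Tm : ∀ g h, T (g * h) = T g * T h := fun g h => ext_dl fun y => by simp [hT, mul_smul]
  have Ts : ∀ g, star (T g) = T g⁻¹ := fun g => ext_inner fun y y' => by
    rw [ContinuousLinearMap.star_eq_adjoint, ContinuousLinearMap.adjoint_inner_right, hT, hT,
      inner_dl_dl, inner_dl_dl]
    simp [eq_inv_smul_iff]
  exact ⟨{ toFun := fun g => ⟨T g, by rw [Ts, ← Tm, inv_mul_cancel, T1],
              by rw [Ts, ← Tm, mul_inv_cancel, T1]⟩
           map_one' := Subtype.ext T1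
           map_mul' := fun g h => Subtype.ext (Tm g h) }, hT⟩

end

open scoped MatrixOrder in
theorem gram_factor {ι H : Type} [Fintype ι] [NormedAddCommGroup H] [InnerProductSpace ℂ H]
    (v : ι → H) : ∃ V : ι → ι → ℂ, ∀ a b, ⟪v a, v b⟫_ℂ = ∑ p, (starRingEnd ℂ) (V p a) * V p b := by
  classical
  obtain ⟨V, hV⟩ := CStarAlgebra.nonneg_iff_eq_star_mul_self.mp (Matrix.posSemidef_gram ℂ v).nonneg
  refine ⟨V, fun a b => ?_⟩
  have := congrFun (congrFun hV a) b
  simpa [Matrix.mul_apply] using this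

theorem Pos.gram {ι H R : Type} [Fintype ι] [NormedAddCommGroup H] [InnerProductSpace ℂ H]
    [Ring R] [StarRing R] [Algebra ℂ R] [StarModule ℂ R] (v : ι → H) (b : ι → R) :
    Pos (∑ a, ∑ c, ⟪v a, v c⟫_ℂ • (star (b a) * b c)) := by
  obtain ⟨V, hV⟩ := gram_factor v
  refine (Pos.sum univ fun p _ => Pos.sq (∑ a, V p a • b a)).of_eq ?_
  simp only [hV, star_sum, sum_mul, mul_sum, star_smul, smul_mul_smul_comm, sum_smul]
  rw [sum_comm]
  refine (sum_congr rfl fun a _ => sum_comm).trans (sum_comm.trans ?_)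
  rfl

theorem norm_le_of_Pos {B : Type} [CStarAlgebra B] {a : B} {r : ℝ} (hr : 0 ≤ r)
    (h : Pos (((r ^ 2 : ℝ) : ℂ) • (1 : B) - star a * a)) : ‖a‖ ≤ r := by
  letI := CStarAlgebra.spectralOrder B
  letI := CStarAlgebra.spectralOrderedRing B
  have h1 : 0 ≤ ((r ^ 2 : ℝ) : ℂ) • (1 : B) - star a * a :=
    h.induction (p := fun a => 0 ≤ a) le_rfl star_mul_self_nonneg fun _ _ => add_nonneg
  have h2 : star a * a ≤ algebraMap ℝ B (r ^ 2) := by
    rw [Algebra.algebraMap_eq_smul_one]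
    exact sub_nonneg.1 h1
  rw [← CStarAlgebra.norm_le_iff_le_algebraMap _ (by positivity), CStarRing.norm_star_mul_self,
    ← sq] at h2
  exact (pow_le_pow_iff_left₀ (norm_nonneg _) hr two_ne_zero).1 h2

/-- compression to an orthonormal family followed by a row coisometry is contractive -/
theorem norm_cp_le {K H B : Type} [Fintype K] [NormedAddCommGroup H] [InnerProductSpace ℂ H]
    [CompleteSpace H] [CStarAlgebra B] {e : K → H} (he : Orthonormal ℂ e) {r : K → B}
    (hr : ∑ γ, r γ * star (r γ) = 1) (x : H →L[ℂ] H) :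
    ‖∑ γ, ∑ γ', ⟪e γ, x (e γ')⟫_ℂ • (r γ * star (r γ'))‖ ≤ ‖x‖ := by
  classical
  set a := ∑ γ, ∑ γ', ⟪e γ, x (e γ')⟫_ℂ • (r γ * star (r γ')) with ha
  set b := ∑ γ, ∑ γ', ⟪x (e γ), x (e γ')⟫_ℂ • (r γ * star (r γ')) with hb
  have sa : star a = ∑ γ, ∑ γ', ⟪x (e γ), e γ'⟫_ℂ • (r γ * star (r γ')) := by
    rw [ha, star_sum, sum_comm]
    simp [star_sum]
  have o : ∑ γ, ∑ γ', ⟪e γ, e γ'⟫_ℂ • (r γ * star (r γ')) = 1 := by
    simpa [orthonormal_iff_ite.1 he] using hr
  have h1 := Pos.gram (Sum.elim e fun γ => x (e γ))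
    (Sum.elim (fun γ => star (r γ) * a) fun γ => -star (r γ))
  obtain ⟨z, hz⟩ := CStarAlgebra.nonneg_iff_eq_star_mul_self.mp
    (sub_nonneg.2 (CStarAlgebra.star_mul_le_algebraMap_norm_sq (a := x)))
  have h2 := Pos.gram (fun γ => z (e γ)) fun γ => star (r γ)
  refine norm_le_of_Pos (norm_nonneg _) ((h1.add h2).of_eq ?_)
  have e1 : ∀ γ γ', ⟪z (e γ), z (e γ')⟫_ℂ =
      ((‖x‖ ^ 2 : ℝ) : ℂ) * ⟪e γ, e γ'⟫_ℂ - ⟪x (e γ), x (e γ')⟫_ℂ := by
    intro γ γ'
    rw [← ContinuousLinearMap.adjoint_inner_right, ← ContinuousLinearMap.star_eq_adjoint,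
      ← ContinuousLinearMap.mul_apply, ← hz, ContinuousLinearMap.sub_apply, inner_sub_right,
      ContinuousLinearMap.mul_apply, ContinuousLinearMap.star_eq_adjoint,
      ContinuousLinearMap.adjoint_inner_right, Algebra.algebraMap_eq_smul_one]
    congr 1
    rw [← inner_smul_right]
    rfl
  have e2 : ∑ γ, ∑ γ', ⟪z (e γ), z (e γ')⟫_ℂ • (star (star (r γ)) * star (r γ')) =
      ((‖x‖ ^ 2 : ℝ) : ℂ) • 1 - b := by
    rw [← o, hb]
    simp only [e1, star_star, sub_smul, sum_sub_distrib, smul_sum, mul_smul]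
  have e3 : ∀ c : K → K → ℂ, ∑ γ, ∑ γ', c γ γ' • (star a * (r γ * (star (r γ') * a))) =
      star a * (∑ γ, ∑ γ', c γ γ' • (r γ * star (r γ'))) * a := by
    intro c
    simp only [mul_sum, sum_mul, mul_smul_comm, smul_mul_assoc, mul_assoc]
  have e4 : ∀ c : K → K → ℂ, ∑ γ, ∑ γ', c γ γ' • (star a * (r γ * star (r γ'))) =
      star a * (∑ γ, ∑ γ', c γ γ' • (r γ * star (r γ'))) := by
    intro c
    simp only [mul_sum, mul_smul_comm]
  have e5 : ∀ c : K → K → ℂ, ∑ γ, ∑ γ', c γ γ' • (r γ * (star (r γ') * a)) =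
      (∑ γ, ∑ γ', c γ γ' • (r γ * star (r γ'))) * a := by
    intro c
    simp only [sum_mul, smul_mul_assoc, mul_assoc]
  rw [e2]
  simp only [Fintype.sum_sum_type, Sum.elim_inl, Sum.elim_inr, star_mul, star_star, star_neg,
    mul_neg, neg_mul, neg_neg, smul_neg, sum_add_distrib, sum_neg_distrib, mul_assoc, e3, e4, e5,
    o, ← ha, ← hb, ← sa, one_mul]
  abel

end Crest.Agent.H3.KE
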