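import Crest.Agent.H3.KE.Model

/-! The group. -/

namespace Crest.Agent.H3.KE

open Finset
open scoped Pointwise

/-- the affine module -/
abbrev Ma : Type := (ℤ → F17) × F17

/-- the nilpotent generators -/
def Np (i : Fin 4) : Module.End F17 Ma where
  toFun p := (fun n : ℤ => if i = 3 then (if n = 0 then p.2 else 0)
    else if (n - 1) % 3 = ((i : ℕ) : ℤ) then p.1 (n - 1) else 0, 0)
  map_add' p q := by
    refine Prod.ext (funext fun n => ?_) (by simp)
    simp only [Prod.fst_add, Prod.snd_add, Pi.add_apply]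
    split_ifs <;> simp
  map_smul' a p := by
    refine Prod.ext (funext fun n => ?_) (by simp)
    simp only [Prod.smul_fst, Prod.smul_snd, Pi.smul_apply]
    split_ifs <;> simp

theorem Np_apply (i : Fin 4) (p : Ma) : Np i p = (fun n : ℤ => if i = 3 then (if n = 0 then p.2 else 0)
    else if (n - 1) % 3 = ((i : ℕ) : ℤ) then p.1 (n - 1) else 0, 0) := rfl

/-- shifts -/
def Sh (k : ℤ) : Module.End F17 Ma where
  toFun p := (fun n => p.1 (n - k), p.2)
  map_add' _ _ := rfl
  map_smul' _ _ := rfl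

theorem Sh_apply (k : ℤ) (p : Ma) : Sh k p = (fun n => p.1 (n - k), p.2) := rfl

/-- the shift as a unit -/
def tU : (Module.End F17 Ma)ˣ :=
  ⟨Sh 1, Sh (-1), LinearMap.ext fun p => by simp [Sh_apply],
    LinearMap.ext fun p => by simp [Sh_apply]⟩

theorem Np_mul (i j : Fin 4) : Np i * Np j = 0 ∨ Np j * Np i = 0 := by
  have h : ∀ i j : Fin 4, i = 3 ∨ (j = 3 ∧ (i : ℕ) ≠ 0) ∨ (j ≠ 3 ∧ ((j : ℕ) + 1) % 3 ≠ i) →
      Np i * Np j = 0 := by
    intro i j hij
    refine LinearMap.ext fun p => Prod.ext (funext fun n => ?_) rfl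
    simp only [Module.End.mul_apply, Np_apply, LinearMap.zero_apply, Prod.fst_zero, Pi.zero_apply]
    split_ifs <;> first | rfl | omega
  simp only [Fin.forall_fin_succ, IsEmpty.forall_iff, and_true] at h
  fin_cases i <;> fin_cases j <;> simp_all

theorem Np_sq (i : Fin 4) : Np i * Np i = 0 := (Np_mul i i).elim id id

/-- generators in the ambient group -/
def gU : Option (Fin 4) → (Module.End F17 Ma)ˣ
  | none => tU
  | some i => un (Np i) (Np_sq i)

/-- the group -/
def Lam : Subgroup (Module.End F17 Ma)ˣ := (FreeGroup.lift gU).range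

instance : Countable Lam := (MonoidHom.rangeRestrict_surjective (FreeGroup.lift gU)).countable

/-- generators -/
def xg (i : Fin 4) : Lam := ⟨un (Np i) (Np_sq i), FreeGroup.of (some i), by simp [gU]⟩

/-- the shift -/
def tg' : Lam := ⟨tU, FreeGroup.of none, by simp [gU]⟩

theorem gen_xg : Gen xg :=
  Gen.of_inj Lam.subtype Subtype.val_injective (gen_un Np Np_sq (fun _ => smul17 _) Np_mul)

theorem zp_val (k : F17) : ((zp (xg 3) k : Lam).1 : Module.End F17 Ma) = 1 + k • Np 3 := by
  rw [zp, Subgroup.coe_pow]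
  refine (un_pow _ (Np_sq 3) _).trans ?_
  rw [← Nat.cast_smul_eq_nsmul F17, ZMod.natCast_zmod_val]

theorem xg_val (i : Fin 4) : ((xg i).1 : Module.End F17 Ma) = 1 + Np i := rfl

theorem tg_val : (tg'.1 : Module.End F17 Ma) = Sh 1 := rfl

theorem key1 (k : F17) : xg 1 * (zp (xg 3) k * tg') = zp (xg 3) k * tg' * xg 0 := by
  refine Subtype.ext (Units.ext (LinearMap.ext fun p => Prod.ext (funext fun n => ?_) ?_)) <;>
    simp [zp_val, xg_val, tg_val, Np_apply, Sh_apply]
  split_ifs <;> first | omega | ring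

theorem key2 (k : F17) : xg 2 * (zp (xg 3) k * tg') = zp (xg 3) k * tg' * xg 1 := by
  refine Subtype.ext (Units.ext (LinearMap.ext fun p => Prod.ext (funext fun n => ?_) ?_)) <;>
    simp [zp_val, xg_val, tg_val, Np_apply, Sh_apply]
  split_ifs <;> first | omega | ring

theorem key0 (k : F17) :
    xg 0 * (zp (xg 3) k * tg') = zp (xg 3) k * tg' * (zp (xg 3) k * xg 2) := by
  refine Subtype.ext (Units.ext (LinearMap.ext fun p => Prod.ext (funext fun n => ?_) ?_)) <;>
    simp [zp_val, xg_val, tg_val, Np_apply, Sh_apply]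
  split_ifs <;> first | omega | ring

/-- the base points -/
def Sa (a : F17) : Set Ma := {p | p.2 = 1 ∧ p.1 0 = a ∧ ∀ n < 0, p.1 n = 0}

theorem Sa_inj : Function.Injective Sa := by
  intro a b h
  have : ((fun n => if n = 0 then a else 0, 1) : Ma) ∈ Sa a :=
    ⟨rfl, rfl, fun n hn => if_neg hn.ne⟩
  rw [h] at this
  simpa using this.2.1

theorem smul_Sa {i : Fin 4} (hi : i ≠ 3) (a : F17) : xg i • Sa a = Sa a := by
  ext p
  rw [Set.mem_smul_set_iff_inv_smul_mem]
  change (1 - Np i) p ∈ Sa a ↔ _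
  simp only [Sa, LinearMap.sub_apply, Module.End.one_apply, Np_apply, hi, if_false,
    Set.mem_setOf_eq, Prod.snd_sub, sub_zero, Prod.fst_sub, Pi.sub_apply]
  refine and_congr_right fun _ => ?_
  have key : (∀ n < 0, (p.1 n - if (n - 1) % 3 = ((i : ℕ) : ℤ) then p.1 (n - 1) else 0) = 0) ↔
      ∀ n < 0, p.1 n = 0 := by
    constructor
    · intro h n hn
      have h1 := h n hn
      split_ifs at h1 with h2
      · have h3 := h (n - 1) (by omega)
        rw [if_neg (by omega), sub_zero] at h3
        simpa [h3] using h1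
      · simpa using h1
    · intro h n hn
      simp [h n hn, h (n - 1) (by omega)]
  rw [key]
  refine and_congr_left fun h => ?_
  simp [h (-1) (by omega)]

theorem smul_Sa3 (a : F17) : xg 3 • Sa a = Sa (a + 1) := by
  ext p
  rw [Set.mem_smul_set_iff_inv_smul_mem]
  change (1 - Np 3) p ∈ Sa a ↔ _
  simp only [Sa, LinearMap.sub_apply, Module.End.one_apply, Np_apply, if_true,
    Set.mem_setOf_eq, Prod.snd_sub, sub_zero, Prod.fst_sub, Pi.sub_apply]
  refine and_congr_right fun h => and_congr (by rw [h, sub_eq_iff_eq_add]) ?_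
  exact forall₂_congr fun n hn => by rw [if_neg hn.ne, sub_zero]

end Crest.Agent.H3.KE
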