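import Crest.Agent.H3.KE.Mon

/-! The concrete groups. -/

namespace Crest.Agent.H3.KE

open Finset

section ring
variable {R : Type} [Ring R]

/-- the unit `1 + N` for `N` of square zero -/
def un (N : R) (h : N * N = 0) : Rˣ :=
  ⟨1 + N, 1 - N, by simp [mul_sub, add_mul, h], by simp [sub_mul, mul_add, h]⟩

@[simp] theorem un_val (N : R) (h : N * N = 0) : (un N h : R) = 1 + N := rfl
@[simp] theorem un_inv (N : R) (h : N * N = 0) : (((un N h)⁻¹ : Rˣ) : R) = 1 - N := rfl

theorem un_pow (N : R) (h : N * N = 0) (n : ℕ) : ((un N h ^ n : Rˣ) : R) = 1 + n • N := by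
  induction n with
  | zero => simp
  | succ n ih =>
    rw [pow_succ, Units.val_mul, ih]
    simp [mul_add, add_mul, h, mul_assoc, add_assoc, add_comm, add_left_comm]

theorem comm_eq {X Y : R} (hX : X * X = 0) (hY : Y * Y = 0) (h : Y * X = 0) :
    (1 + X) * (1 + Y) * (1 - X) * (1 - Y) = 1 + X * Y := by
  have a1 : ∀ y, X * (X * y) = 0 := fun y => by rw [← mul_assoc, hX, zero_mul]
  have a3 : ∀ y, Y * (X * y) = 0 := fun y => by rw [← mul_assoc, h, zero_mul]
  simp only [mul_add, add_mul, mul_sub, sub_mul, mul_one, one_mul, mul_assoc, hX, hY, h, a1, a3,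
    mul_zero, zero_mul]
  abel

theorem comm_eq' {X Y : R} (hX : X * X = 0) (hY : Y * Y = 0) (h : X * Y = 0) :
    (1 + X) * (1 + Y) * (1 - X) * (1 - Y) = 1 - Y * X := by
  have a1 : ∀ y, X * (X * y) = 0 := fun y => by rw [← mul_assoc, hX, zero_mul]
  have a3 : ∀ y, X * (Y * y) = 0 := fun y => by rw [← mul_assoc, h, zero_mul]
  simp only [mul_add, add_mul, mul_sub, sub_mul, mul_one, one_mul, mul_assoc, hX, hY, h, a1, a3,
    mul_zero, zero_mul]
  abel

theorem gen_un (N : Fin 4 → R) (h : ∀ i, N i * N i = 0) (h17 : ∀ i, 17 • N i = 0)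
    (hh : ∀ i j, N i * N j = 0 ∨ N j * N i = 0) : Gen fun i => un (N i) (h i) := by
  refine ⟨fun i => Units.ext (by rw [un_pow, h17, add_zero, Units.val_one]), fun i j => ?_⟩
  have a1 : ∀ i y, N i * (N i * y) = 0 := fun i y => by rw [← mul_assoc, h, zero_mul]
  rcases hh i j with e | e
  · have a2 : ∀ y, N i * (N j * y) = 0 := fun y => by rw [← mul_assoc, e, zero_mul]
    constructor <;> apply Units.ext <;>
      simp only [cm, Units.val_mul, un_val, un_inv, comm_eq' (h i) (h j) e] <;>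
      simp [mul_add, add_mul, mul_sub, sub_mul, mul_assoc, h, e, a1, a2] <;> abel
  · have a2 : ∀ y, N j * (N i * y) = 0 := fun y => by rw [← mul_assoc, e, zero_mul]
    constructor <;> apply Units.ext <;>
      simp only [cm, Units.val_mul, un_val, un_inv, comm_eq (h i) (h j) e] <;>
      simp [mul_add, add_mul, mul_assoc, h, e, a1, a2, add_comm, add_left_comm]

end ring

theorem Gen.of_inj {G G' : Type} [Group G] [Group G'] (f : G →* G') (hf : Function.Injective f)
    {x : Fin 4 → G} (h : Gen fun i => f (x i)) : Gen x := by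
  refine ⟨fun i => hf (by simpa using h.pow i), fun i j => ⟨hf ?_, hf ?_⟩⟩
  · simpa [cm] using (h.nil i j).1.eq
  · simpa [cm] using (h.nil i j).2.eq

theorem Gen.prod {G G' : Type} [Group G] [Group G'] {x : Fin 4 → G} {y : Fin 4 → G'} (hx : Gen x)
    (hy : Gen y) : Gen fun i => (x i, y i) :=
  ⟨fun i => Prod.ext (hx.pow i) (hy.pow i), fun i j =>
    ⟨Prod.ext (hx.nil i j).1 (hy.nil i j).1, Prod.ext (hx.nil i j).2 (hy.nil i j).2⟩⟩

/-- the field with 17 elements -/
abbrev F17 : Type := ZMod 17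

instance : Fact (Nat.Prime 17) := ⟨by norm_num⟩

theorem smul17 {M : Type} [AddCommGroup M] [Module F17 M] (a : M) : 17 • a = 0 := by
  rw [← Nat.cast_smul_eq_nsmul F17, show ((17 : ℕ) : F17) = 0 from rfl, zero_smul]

/-! ### the dual side -/

/-- sequences -/
abbrev Vs : Type := ℕ → F17

/-- partial shifts -/
def Es (r m : ℕ) : Module.End F17 Vs where
  toFun c n := if n % 3 = r then c (n + m) else 0
  map_add' c c' := by ext n; by_cases h : n % 3 = r <;> simp [h]
  map_smul' a c := by ext n; by_cases h : n % 3 = r <;> simp [h]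

@[simp] theorem Es_apply (r m : ℕ) (c : Vs) (n : ℕ) :
    Es r m c n = if n % 3 = r then c (n + m) else 0 := rfl

/-- `j` is the last nonzero position -/
def top (j : ℕ) (c : Vs) : Prop := c j ≠ 0 ∧ ∀ n, j < n → c n = 0

theorem top_add {j r m : ℕ} (hm : 0 < m) {c : Vs} (h : top j c) : top j (c + Es r m c) :=
  ⟨by simpa [h.2 (j + m) (by omega)] using h.1, fun n hn => by
    simp [h.2 n hn, h.2 (n + m) (by omega)]⟩

theorem top_sub {j r m : ℕ} (hm : 0 < m) {c : Vs} (h : top j c) : top j (c - Es r m c) :=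
  ⟨by simpa [h.2 (j + m) (by omega)] using h.1, fun n hn => by
    simp [h.2 n hn, h.2 (n + m) (by omega)]⟩

/-- level sets -/
def Cj (j : ℕ) : Type := {c : Vs // top j c}

instance (j : ℕ) : Finite (Cj j) :=
  Finite.of_injective (fun (c : Cj j) (i : Fin (j + 1)) => c.1 i) fun c c' h =>
    Subtype.ext (funext fun n => by
      by_cases hn : j < n
      · rw [c.2.2 n hn, c'.2.2 n hn]
      · exact congrFun h ⟨n, by omega⟩)

noncomputable instance (j : ℕ) : Fintype (Cj j) := Fintype.ofFinite _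

theorem orbit_inv {j : ℕ} {α : Type} (β : Vs → α)
    (h : ∀ r < 3, ∀ c, top j c → β (c + Es r 1 c) = β c) :
    ∀ m, m % 3 ≠ 0 → ∀ r < 3, ∀ c, top j c → β (c + Es r m c) = β c := by
  intro m
  induction m using Nat.strong_induction_on with
  | _ m ih =>
  intro hm r hr c hc
  by_cases h1 : m = 1
  · exact h1 ▸ h r hr c hc
  obtain ⟨a, b, hab, ha, hb, ha0, hb0⟩ : ∃ a b, a + b = m ∧ a % 3 ≠ 0 ∧ b % 3 ≠ 0 ∧ 0 < a ∧ 0 < b := by
    by_cases h2 : m % 3 = 2
    · exact ⟨1, m - 1, by omega, by omega, by omega, by omega, by omega⟩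
    · exact ⟨2, m - 2, by omega, by omega, by omega, by omega, by omega⟩
  have sq : ∀ r m, m % 3 ≠ 0 → Es r m * Es r m = 0 := fun r m hm => by
    ext c n
    simp only [Module.End.mul_apply, Es_apply, LinearMap.zero_apply, Pi.zero_apply]
    split_ifs <;> first | rfl | omega
  have inv : ∀ r < 3, ∀ a, a < m → a % 3 ≠ 0 → 0 < a → ∀ c, top j c → β (c - Es r a c) = β c := by
    intro r hr a ham ha ha0 c hc
    rw [← ih a ham ha r hr _ (top_sub ha0 hc), map_sub, ← Module.End.mul_apply, sq r a ha]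
    simp
  have e := comm_eq (sq r a ha) (sq ((r + a) % 3) b hb) (by
    ext c n
    simp only [Module.End.mul_apply, Es_apply, LinearMap.zero_apply, Pi.zero_apply]
    split_ifs <;> first | rfl | omega)
  have e2 : Es r a * Es ((r + a) % 3) b = Es r m := by
    ext c n
    simp only [Module.End.mul_apply, Es_apply, add_assoc, hab]
    split_ifs <;> first | rfl | omega
  have e3 := congrArg (fun f => f c) e
  simp only [e2, Module.End.mul_apply, LinearMap.add_apply, LinearMap.sub_apply,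
    Module.End.one_apply] at e3
  have hr' : (r + a) % 3 < 3 := Nat.mod_lt _ (by omega)
  rw [← e3, ih a (by omega) ha r hr _ (top_add hb0 (top_sub ha0 (top_sub hb0 hc))),
    ih b (by omega) hb _ hr' _ (top_sub ha0 (top_sub hb0 hc)),
    inv r hr a (by omega) ha ha0 _ (top_sub hb0 hc), inv _ hr' b (by omega) hb hb0 _ hc]

theorem orbit_big (M : ℕ) (β : Cj (3 * M) → ℝ) (h0 : ∀ c, 0 ≤ β c)
    (h : ∀ r < 3, ∀ c : Cj (3 * M), β ⟨c.1 + Es r 1 c.1, top_add one_pos c.2⟩ = β c) (c : Cj (3 * M)) :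
    M * β c ≤ ∑ c, β c := by
  classical
  let β' : Vs → ℝ := fun c => if h : top (3 * M) c then β ⟨c, h⟩ else 0
  have h1 := orbit_inv β' (j := 3 * M) fun r hr c hc => by
    simp only [β', hc, top_add one_pos hc, dif_pos]
    exact h r hr ⟨c, hc⟩
  let f : Fin M → Cj (3 * M) := fun i => ⟨c.1 + Es 2 (3 * i + 1) c.1, top_add (by omega) c.2⟩
  have hf : ∀ i, β (f i) = β c := fun i => by
    have := h1 (3 * i + 1) (by omega) 2 (by omega) c.1 c.2
    simp only [β', c.2, top_add (show 0 < 3 * i.1 + 1 by omega) c.2, dif_pos] at this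
    exact this
  have hne : ∀ i i' : Fin M, i < i' → f i ≠ f i' := by
    intro i i' hi e
    have h2 := congrFun (congrArg Subtype.val e) (3 * M - (3 * i + 1))
    have h3 := i'.2
    have h4 : (i : ℕ) < i' := hi
    simp only [f, Pi.add_apply, Es_apply, add_right_inj] at h2
    rw [if_pos (by omega), if_pos (by omega), c.2.2 (3 * M - (3 * i + 1) + (3 * i' + 1)) (by omega),
      show 3 * M - (3 * i + 1) + (3 * i + 1) = 3 * M by omega] at h2
    exact c.2.1 h2
  have hinj : Function.Injective f := fun i i' e => by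
    rcases lt_trichotomy i i' with h | h | h
    · exact absurd e (hne _ _ h)
    · exact h
    · exact absurd e.symm (hne _ _ h)
  calc (M : ℝ) * β c = ∑ i, β (f i) := by simp [hf]
    _ = ∑ d ∈ univ.image f, β d := (sum_image hinj.injOn).symm
    _ ≤ _ := sum_le_sum_of_subset_of_nonneg (subset_univ _) fun d _ _ => h0 d

/-- the nilpotent generators on the dual side -/
def Nd (i : Fin 4) : Module.End F17 (Vs × F17) where
  toFun p := if i = 3 then (0, p.1 0) else (Es i 1 p.1, 0)
  map_add' p q := by split_ifs <;> simp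
  map_smul' a p := by split_ifs <;> simp

theorem Nd_apply (i : Fin 4) (p : Vs × F17) :
    Nd i p = if i = 3 then (0, p.1 0) else (Es i 1 p.1, 0) := rfl

theorem Nd_mul (i j : Fin 4) : Nd i * Nd j = 0 ∨ Nd j * Nd i = 0 := by
  have h : ∀ i j : Fin 4, (i = 3 ∧ (j : ℕ) ≠ 0) ∨ j = 3 ∨ (i ≠ 3 ∧ ((i : ℕ) + 1) % 3 ≠ j) →
      Nd i * Nd j = 0 := by
    intro i j hij
    refine LinearMap.ext fun p => ?_
    simp only [Module.End.mul_apply, Nd_apply]
    by_cases hj : j = 3
    · split_ifs <;> simp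
    · by_cases hi : i = 3
      · have : (j : ℕ) ≠ 0 := by tauto
        simp [hi, hj, this.symm]
      · have : ((i : ℕ) + 1) % 3 ≠ j := by tauto
        simp only [hi, hj, if_false, LinearMap.zero_apply]
        refine Prod.ext (funext fun n => ?_) rfl
        simp only [Es_apply, Prod.fst_zero, Pi.zero_apply]
        split_ifs <;> first | rfl | omega
  revert i j
  simp only [Fin.forall_fin_succ, IsEmpty.forall_iff, and_true]
  refine ⟨⟨?_, ?_, ?_, ?_⟩, ⟨?_, ?_, ?_, ?_⟩, ⟨?_, ?_, ?_, ?_⟩, ⟨?_, ?_, ?_, ?_⟩⟩ <;>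
    first | exact Or.inl (h _ _ (by decide)) | exact Or.inr (h _ _ (by decide))

theorem Nd_sq (i : Fin 4) : (-Nd i) * (-Nd i) = 0 := by
  exact (neg_mul_neg (Nd i) (Nd i)).trans ((Nd_mul i i).elim id id)

/-- maps that respect the levels -/
def Gd (m : Module.End F17 (Vs × F17)) : Prop :=
  (∀ z, m (0, z) = (0, z)) ∧ ∀ j c, top j c → top j (m (c, 0)).1

theorem Gd.split {m : Module.End F17 (Vs × F17)} (h : Gd m) (p : Vs × F17) :
    m p = ((m (p.1, 0)).1, (m (p.1, 0)).2 + p.2) := by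
  have : p = (p.1, 0) + (0, p.2) := by simp
  rw [this, map_add, h.1]
  ext <;> simp

theorem Gd.mul {m m' : Module.End F17 (Vs × F17)} (h : Gd m) (h' : Gd m') : Gd (m * m') :=
  ⟨fun z => by rw [Module.End.mul_apply, h'.1, h.1], fun j c hc => by
    rw [Module.End.mul_apply, h.split]
    exact h.2 j _ (h'.2 j c hc)⟩

/-- the group acting on all levels -/
def Mg : Subgroup (Module.End F17 (Vs × F17))ˣ where
  carrier := {m | Gd m.val ∧ Gd m⁻¹.val}
  mul_mem' ha hb := ⟨ha.1.mul hb.1, by rw [mul_inv_rev]; exact hb.2.mul ha.2⟩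
  one_mem' := ⟨⟨fun _ => rfl, fun _ _ h => h⟩, ⟨fun _ => rfl, fun _ _ h => h⟩⟩
  inv_mem' ha := ⟨ha.2, by simpa using ha.1⟩

/-- the generators on the dual side -/
def mg (i : Fin 4) : Mg := ⟨un (-Nd i) (Nd_sq i), by
  by_cases hi : i = 3
  · constructor <;> refine ⟨fun z => ?_, fun j c hc => ?_⟩ <;> simp [Nd_apply, *]
  · constructor <;> refine ⟨fun z => ?_, fun j c hc => ?_⟩
    · simp [Nd_apply, hi]
    · simpa [Nd_apply, hi, sub_eq_add_neg] using top_sub (r := i) one_pos hc
    · simp [Nd_apply, hi]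
    · simpa [Nd_apply, hi] using top_add (r := i) one_pos hc⟩

theorem gen_mg : Gen mg :=
  Gen.of_inj Mg.subtype Subtype.val_injective (gen_un (fun i => -Nd i) Nd_sq (fun _ => smul17 _)
    fun i j => (Nd_mul i j).imp (neg_mul_neg (Nd i) (Nd j)).trans (neg_mul_neg (Nd j) (Nd i)).trans)

/-- the additive character -/
noncomputable def ψ : AddChar F17 ℂ := ZMod.stdAddChar

/-- the monomial action on level `j` -/
noncomputable def act (j : ℕ) : MA Mg (Cj j) where
  h m c := ⟨(m.1⁻¹.val (c.1, 0)).1, m.2.2.2 j c.1 c.2⟩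
  θ m c := ψ (m.1⁻¹.val (c.1, 0)).2
  h_one c := rfl
  h_mul m m' c := Subtype.ext (by
    simp only [Subgroup.coe_mul, mul_inv_rev, Units.val_mul, Module.End.mul_apply]
    rw [m'.2.2.split])
  θ_one c := by simp
  θ_mul m m' c := by
    simp only [Subgroup.coe_mul, mul_inv_rev, Units.val_mul, Module.End.mul_apply]
    rw [m'.2.2.split, AddChar.map_add_eq_mul, mul_comm]
  norm_θ m c := AddChar.norm_apply _ _

theorem act_h {j : ℕ} {i : Fin 4} (hi : i ≠ 3) (c : Cj j) :
    ((act j).h (mg i) c).1 = c.1 + Es i 1 c.1 := by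
  simp [act, mg, Nd_apply, hi]

theorem act_θ {j : ℕ} {i : Fin 4} (hi : i ≠ 3) (c : Cj j) : (act j).θ (mg i) c = 1 := by
  simp [act, mg, Nd_apply, hi]

theorem act_h3 {j : ℕ} (c : Cj j) : (act j).h (mg 3) c = c :=
  Subtype.ext (by simp [act, mg, Nd_apply])

theorem act_θ3 {j : ℕ} (c : Cj j) : (act j).θ (mg 3) c = ψ (c.1 0) := by
  simp [act, mg, Nd_apply]

theorem act_zp {j : ℕ} (k : F17) (c : Cj j) :
    (act j).h (zp (mg 3) k) c = c ∧ (act j).θ (zp (mg 3) k) c = ψ (c.1 0 * k) := by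
  have : ∀ n : ℕ, (act j).h (mg 3 ^ n) c = c ∧ (act j).θ (mg 3 ^ n) c = ψ (c.1 0 * n) := by
    intro n
    induction n with
    | zero => simp [(act j).h_one, (act j).θ_one]
    | succ n ih =>
      rw [pow_succ, (act j).h_mul, (act j).θ_mul, ih.1, ih.2, act_h3, act_θ3,
        ← AddChar.map_add_eq_mul]
      simp [mul_add]
  simpa [zp] using this k.val

/-- removing the first coordinate -/
def sh {j : ℕ} (c : Cj (j + 1)) : Cj j :=
  ⟨fun n => c.1 (n + 1), c.2.1, fun n hn => c.2.2 _ (by omega)⟩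

/-- level `j + 1` is a product -/
def shE (j : ℕ) : Cj (j + 1) ≃ F17 × Cj j where
  toFun c := (c.1 0, sh c)
  invFun p := ⟨fun n => Nat.casesOn n p.1 p.2.1, p.2.2.1, fun n hn => by
    obtain ⟨n, rfl⟩ : ∃ k, n = k + 1 := ⟨n - 1, by omega⟩
    exact p.2.2.2 n (by omega)⟩
  left_inv c := Subtype.ext (funext fun n => by cases n <;> rfl)
  right_inv p := rfl

end Crest.Agent.H3.KE
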