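import Crest.Agent.H3.KE.Quot

/-! Twisted composition operators on finite sums of a Hilbert space. -/

namespace Crest.Agent.H3.KE

open Finset
open scoped InnerProductSpace

/-- finite Hilbert sums -/
abbrev PP (C H : Type) : Type := PiLp 2 fun _ : C => H

section
variable {C C' C'' H : Type} [NormedAddCommGroup H] [InnerProductSpace ℂ H]

/-- `ξ ↦ (c ↦ θ c • T (ξ (m c)))` -/
noncomputable def tw (θ : C' → ℂ) (m : C' → C) (T : H →L[ℂ] H) : PP C H →L[ℂ] PP C' H :=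
  (PiLp.continuousLinearEquiv 2 ℂ fun _ : C' => H).symm.toContinuousLinearMap ∘L
    ContinuousLinearMap.pi fun c => θ c • (T ∘L PiLp.proj 2 (fun _ : C => H) (m c))

@[simp] theorem tw_apply (θ : C' → ℂ) (m : C' → C) (T : H →L[ℂ] H) (ξ : PP C H) (c : C') :
    tw θ m T ξ c = θ c • T (ξ (m c)) := rfl

theorem tw_tw (θ : C'' → ℂ) (m : C'' → C') (T : H →L[ℂ] H) (θ' : C' → ℂ) (m' : C' → C)
    (T' : H →L[ℂ] H) (ξ : PP C H) :
    tw θ m T (tw θ' m' T' ξ) = tw (fun c => θ c * θ' (m c)) (fun c => m' (m c)) (T * T') ξ := by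
  ext c
  simp [mul_smul]

variable [Fintype C] [Fintype C']

theorem tw_sub (θ : C' → ℂ) (m : C' → C) (T T' : H →L[ℂ] H) :
    tw θ m T - tw θ m T' = tw θ m (T - T') := by
  ext ξ c
  simp [smul_sub]

theorem norm_tw_le {θ : C' → ℂ} {m : C' → C} {n : ℝ} (hn : 0 ≤ n) (hθ : ∀ c, ‖θ c‖ = 1)
    (hm : ∀ f : C → ℝ, (∀ c, 0 ≤ f c) → ∑ c, f (m c) ≤ n ^ 2 * ∑ c, f c) (T : H →L[ℂ] H)
    (ξ : PP C H) : ‖tw θ m T ξ‖ ≤ n * ‖T‖ * ‖ξ‖ := by
  refine (pow_le_pow_iff_left₀ (by positivity) (by positivity) two_ne_zero).1 ?_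
  rw [PiLp.norm_sq_eq_of_L2, mul_pow, mul_pow, PiLp.norm_sq_eq_of_L2, mul_assoc, mul_sum]
  refine le_trans (sum_le_sum fun c _ => ?_)
    (hm (fun c => ‖T‖ ^ 2 * ‖ξ c‖ ^ 2) fun c => by positivity)
  rw [tw_apply, norm_smul, hθ, one_mul, ← mul_pow]
  gcongr
  exact T.le_opNorm _

end

/-- a monomial action -/
structure MA (G C : Type) [Group G] where
  h : G → C → C
  θ : G → C → ℂ
  h_one : ∀ c, h 1 c = c
  h_mul : ∀ g g' c, h (g * g') c = h g' (h g c)
  θ_one : ∀ c, θ 1 c = 1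
  θ_mul : ∀ g g' c, θ (g * g') c = θ g c * θ g' (h g c)
  norm_θ : ∀ g c, ‖θ g c‖ = 1

namespace MA
variable {G C H : Type} [Group G] (A : MA G C) [NormedAddCommGroup H] [InnerProductSpace ℂ H]

/-- the permutation -/
def eqv (g : G) : C ≃ C where
  toFun := A.h g
  invFun := A.h g⁻¹
  left_inv c := by rw [← A.h_mul, mul_inv_cancel, A.h_one]
  right_inv c := by rw [← A.h_mul, inv_mul_cancel, A.h_one]

/-- tensor product with an operator -/
noncomputable def op (g : G) (T : H →L[ℂ] H) : PP C H →L[ℂ] PP C H := tw (A.θ g) (A.h g) T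

@[simp] theorem op_apply (g : G) (T : H →L[ℂ] H) (ξ : PP C H) (c : C) :
    A.op g T ξ c = A.θ g c • T (ξ (A.h g c)) := rfl

theorem op_mul (g g' : G) (T T' : H →L[ℂ] H) : A.op (g * g') (T * T') = A.op g T * A.op g' T' := by
  ext ξ c
  simp [A.h_mul, A.θ_mul, mul_smul]

theorem op_one : A.op 1 (1 : H →L[ℂ] H) = 1 := by
  ext ξ c
  simp [A.h_one, A.θ_one]

theorem θ_inv (g : G) (c : C) : A.θ g⁻¹ (A.h g c) = (starRingEnd ℂ) (A.θ g c) := by
  have h1 := A.θ_mul g g⁻¹ c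
  rw [mul_inv_cancel, A.θ_one] at h1
  have h2 : A.θ g c * (starRingEnd ℂ) (A.θ g c) = 1 := by
    rw [Complex.mul_conj, Complex.normSq_eq_norm_sq, A.norm_θ]
    simp
  have h3 : A.θ g c ≠ 0 := left_ne_zero_of_mul_eq_one h2
  exact mul_left_cancel₀ h3 (h1.symm.trans h2.symm)

/-- the adjoint action on pairs -/
def ad : MA G (C × C) where
  h g p := (A.h g p.1, A.h g p.2)
  θ g p := A.θ g p.1 * (starRingEnd ℂ) (A.θ g p.2)
  h_one p := by simp [A.h_one]
  h_mul g g' p := by simp [A.h_mul]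
  θ_one p := by simp [A.θ_one]
  θ_mul g g' p := by simp only [A.θ_mul, map_mul]; ring
  norm_θ g p := by simp [A.norm_θ]

/-- pull-back along a homomorphism -/
def comap {G' : Type} [Group G'] (f : G' →* G) : MA G' C where
  h g := A.h (f g)
  θ g := A.θ (f g)
  h_one p := by simp [A.h_one]
  h_mul g g' p := by simp [A.h_mul]
  θ_one p := by simp [A.θ_one]
  θ_mul g g' p := by simp [A.θ_mul]
  norm_θ g p := A.norm_θ _ _

variable [Fintype C]

theorem op_sub (g : G) (T T' : H →L[ℂ] H) : A.op g T - A.op g T' = A.op g (T - T') := tw_sub _ _ _ _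

theorem norm_op_apply_le (g : G) (T : H →L[ℂ] H) (ξ : PP C H) : ‖A.op g T ξ‖ ≤ ‖T‖ * ‖ξ‖ := by
  have := norm_tw_le (n := 1) (m := A.h g) zero_le_one (A.norm_θ g) (fun f _ => by
    rw [one_pow, one_mul]
    exact ((A.eqv g).sum_comp f).le) T ξ
  rwa [one_mul] at this

theorem norm_op_le (g : G) (T : H →L[ℂ] H) : ‖A.op g T‖ ≤ ‖T‖ :=
  ContinuousLinearMap.opNorm_le_bound _ (norm_nonneg _) (A.norm_op_apply_le g T)

theorem star_op [CompleteSpace H] (g : G) (T : H →L[ℂ] H) :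
    star (A.op g T) = A.op g⁻¹ (star T) := by
  rw [ContinuousLinearMap.star_eq_adjoint]
  refine ((ContinuousLinearMap.eq_adjoint_iff _ _).2 fun ξ ζ => ?_).symm
  rw [PiLp.inner_apply, PiLp.inner_apply, ← (A.eqv g).sum_comp]
  refine sum_congr rfl fun c _ => ?_
  have : A.h g⁻¹ (A.h g c) = c := (A.eqv g).left_inv c
  change ⟪A.θ g⁻¹ (A.h g c) • (star T) (ξ (A.h g⁻¹ (A.h g c))), ζ (A.h g c)⟫_ℂ = _
  rw [this, A.θ_inv, op_apply, inner_smul_left, inner_smul_right,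
    ContinuousLinearMap.star_eq_adjoint, ContinuousLinearMap.adjoint_inner_left]
  simp

/-- the genuine representation -/
noncomputable def rep : G →* (PP C ℂ →L[ℂ] PP C ℂ) where
  toFun g := A.op g 1
  map_one' := A.op_one
  map_mul' g g' := by rw [← A.op_mul, mul_one]

theorem star_rep (g : G) : star (A.rep g) = A.rep g⁻¹ := by
  change star (A.op g 1) = A.op g⁻¹ 1
  rw [star_op, star_one]

end MA

end Crest.Agent.H3.KE
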