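import Crest.Agent.H3.KE.Lam

/-! Propagation of almost invariant vectors from one level to the next. -/

namespace Crest.Agent.H3.KE

open Finset

/-- the generators of the product group -/
def xx (i : Fin 4) : Lam × Mg := (xg i, mg i)

theorem gen_xx : Gen xx := gen_xg.prod gen_mg

/-- the coset representatives -/
def ak (k : F17) : Lam := zp (xg 3) k * tg'

/-- the cocycle -/
def cγ : Fin 4 → F17 → Lam × Mg :=
  ![fun k => zp (xx 3) k * xx 2, fun _ => xx 0, fun _ => xx 1, fun _ => 1]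

/-- the permutation of the cosets -/
def kk (i : Fin 4) : F17 ≃ F17 := if i = 3 then Equiv.addRight 1 else Equiv.refl _

theorem cγ_mem (i : Fin 4) (k : F17) : cγ i k ∈ Subgroup.closure (Set.range xx) := by
  have h : ∀ i, xx i ∈ Subgroup.closure (Set.range xx) := fun i => Subgroup.subset_closure ⟨i, rfl⟩
  fin_cases i
  · exact mul_mem (pow_mem (h 3) _) (h 2)
  · exact h 0
  · exact h 1
  · exact one_mem _

theorem key (i : Fin 4) (k : F17) : xg i * ak k = ak (kk i k) * (cγ i k).1 := by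
  fin_cases i
  · exact key0 k
  · exact key1 k
  · exact key2 k
  · change xg 3 * (zp (xg 3) k * tg') = zp (xg 3) (k + 1) * tg' * 1
    rw [add_comm, zp_add (gen_xg.pow 3), zp_one, mul_one, mul_assoc]

theorem key' {j : ℕ} (i : Fin 4) (k : F17) (c : Cj (j + 1)) :
    sh ((act (j + 1)).h (mg i) c) = (act j).h (cγ i k).2 (sh c) ∧
      (act (j + 1)).θ (mg i) c * ψ (((act (j + 1)).h (mg i) c).1 0 * k) =
        ψ (c.1 0 * kk i k) * (act j).θ (cγ i k).2 (sh c) := by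
  have e : ∀ i i' : Fin 4, i ≠ 3 → i' ≠ 3 → (i' + 1 : ℕ) % 3 = i →
      sh ((act (j + 1)).h (mg i) c) = (act j).h (mg i') (sh c) := by
    intro i i' hi hi' h
    refine Subtype.ext (funext fun n => ?_)
    rw [act_h hi']
    change ((act (j + 1)).h (mg i) c).1 (n + 1) = _
    rw [act_h hi]
    simp only [Pi.add_apply, Es_apply, sh]
    have := i'.2
    have : (i' : ℕ) ≠ 3 := fun h => hi' (Fin.ext h)
    split_ifs <;> first | rfl | omega
  fin_cases i
  · change _ = (act j).h (zp (mg 3) k * mg 2) _ ∧ _ * _ = _ * (act j).θ (zp (mg 3) k * mg 2) _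
    rw [(act j).h_mul, (act j).θ_mul, (act_zp k _).1, (act_zp k _).2, act_θ (by decide),
      act_θ (by decide), act_h (by decide)]
    refine ⟨e _ _ (by decide) (by decide) rfl, ?_⟩
    simp [kk, sh, add_mul, AddChar.map_add_eq_mul]
  · change _ = (act j).h (mg 0) _ ∧ _ * _ = _ * (act j).θ (mg 0) _
    rw [act_θ (by decide), act_θ (by decide), act_h (by decide)]
    exact ⟨e _ _ (by decide) (by decide) rfl, by simp [kk]⟩
  · change _ = (act j).h (mg 1) _ ∧ _ * _ = _ * (act j).θ (mg 1) _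
    rw [act_θ (by decide), act_θ (by decide), act_h (by decide)]
    exact ⟨e _ _ (by decide) (by decide) rfl, by simp [kk]⟩
  · change sh ((act (j + 1)).h (mg 3) c) = (act j).h 1 _ ∧
      (act (j + 1)).θ (mg 3) c * ψ (((act (j + 1)).h (mg 3) c).1 0 * k) = _ * (act j).θ 1 _
    rw [act_h3, act_θ3, (act j).h_one, (act j).θ_one]
    rw [← AddChar.map_add_eq_mul]
    simp [kk, mul_add, add_comm]

variable {H : Type} [NormedAddCommGroup H] [InnerProductSpace ℂ H]

/-- one term of the induction map -/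
noncomputable def Jk (j : ℕ) (k : F17) (T : H →L[ℂ] H) : PP (Cj j) H →L[ℂ] PP (Cj (j + 1)) H :=
  tw (fun c => ψ (c.1 0 * k)) sh T

theorem norm_Jk (j : ℕ) (k : F17) (T : H →L[ℂ] H) (ξ : PP (Cj j) H) :
    ‖Jk j k T ξ‖ ≤ 5 * ‖T‖ * ‖ξ‖ := by
  refine norm_tw_le (by norm_num) (fun _ => AddChar.norm_apply _ _) (fun f hf => ?_) T ξ
  rw [← (shE j).symm.sum_comp, Fintype.sum_prod_type]
  have : 0 ≤ ∑ c, f c := sum_nonneg fun c _ => hf c
  change ∑ _a : F17, ∑ c, f c ≤ _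
  rw [sum_const, card_univ, ZMod.card, nsmul_eq_mul]
  gcongr
  norm_num

theorem op_Jk (j : ℕ) (i : Fin 4) (k : F17) (S T : H →L[ℂ] H) (ξ : PP (Cj j) H) :
    (act (j + 1)).op (mg i) S (Jk j k T ξ) =
      Jk j (kk i k) (S * T) ((act j).op (cγ i k).2 1 ξ) := by
  ext c
  simp only [Jk, MA.op_apply, tw_apply, map_smul, smul_smul, (key' i k c).1, (key' i k c).2]
  rfl

theorem norm_le_J (j : ℕ) (T : F17 → H →L[ℂ] H) (ξ : PP (Cj j) H) :
    ‖(act j).op 1 (T 0) ξ‖ ≤ ‖∑ k, Jk j k (T k) ξ‖ := by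
  set ζ := ∑ k, Jk j k (T k) ξ with hζ
  have h1 : ∀ a : F17, ‖tw (fun _ => 1) (fun c => (shE j).symm (a, c)) 1 ζ‖ ≤ ‖ζ‖ := by
    intro a
    refine (norm_tw_le (n := 1) zero_le_one (fun _ => norm_one) (fun f hf => ?_) 1 ζ).trans ?_
    · rw [one_pow, one_mul, ← (shE j).symm.sum_comp, Fintype.sum_prod_type]
      exact single_le_sum (f := fun a => ∑ c, f ((shE j).symm (a, c)))
        (fun a _ => sum_nonneg fun c _ => hf _) (mem_univ a)
    · rw [one_mul]
      exact mul_le_of_le_one_left (norm_nonneg _) ContinuousLinearMap.norm_id_le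
  have h2 : ∑ a : F17, tw (fun _ => 1) (fun c => (shE j).symm (a, c)) 1 ζ =
      (17 : ℂ) • (act j).op 1 (T 0) ξ := by
    ext c
    have : ∀ a k, Jk j k (T k) ξ ((shE j).symm (a, c)) = ψ (a * k) • T k (ξ c) := fun _ _ => rfl
    simp only [hζ, WithLp.ofLp_sum, Finset.sum_apply, tw_apply, one_smul,
      ContinuousLinearMap.one_apply, this, PiLp.smul_apply, MA.op_apply, (act j).θ_one,
      (act j).h_one]
    rw [sum_comm]
    simp only [← sum_smul, ψ, AddChar.sum_mulShift _ (ZMod.isPrimitive_stdAddChar 17)]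
    simp
  have h3 := (congrArg norm h2).symm.le.trans (norm_sum_le_of_le _ fun a _ => h1 a)
  rw [norm_smul, sum_const, card_univ, ZMod.card, nsmul_eq_mul] at h3
  simpa using h3

theorem propagate (u : Lam → H →L[ℂ] H) {δ : ℝ} (hδ : 0 ≤ δ) (hb : ∀ k, ‖u (ak k)‖ ≤ 2)
    (hb' : ‖u (ak 0)⁻¹‖ ≤ 2) (h1 : ‖1 - u (ak 0)⁻¹ * u (ak 0)‖ ≤ 1 / 2)
    (hm : ∀ i k, ‖u (xg i) * u (ak k) - u (ak (kk i k)) * u (cγ i k).1‖ ≤ δ) {j : ℕ}
    {ξ : PP (Cj j) H} (h0 : ξ ≠ 0)
    (hξ : ∀ i k, ‖(act j).op (cγ i k).2 (u (cγ i k).1) ξ - ξ‖ ≤ δ * ‖ξ‖) :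
    ∃ ζ : PP (Cj (j + 1)) H, ζ ≠ 0 ∧
      ∀ i, ‖(act (j + 1)).op (mg i) (u (xg i)) ζ - ζ‖ ≤ 1020 * δ * ‖ζ‖ := by
  have a1 := norm_le_J j (fun k => u (ak k)) ξ
  set ζ := ∑ k, Jk j k (u (ak k)) ξ with hζ
  have a2 : ‖ξ‖ ≤ 4 * ‖ζ‖ := by
    have e : ξ = (act j).op 1 (1 - u (ak 0)⁻¹ * u (ak 0)) ξ +
        (act j).op 1 (u (ak 0)⁻¹) ((act j).op 1 (u (ak 0)) ξ) := by
      ext c
      simp [(act j).θ_one, (act j).h_one]
    have b1 := (congrArg norm e).le.trans (norm_add_le_of_le ((act j).norm_op_apply_le _ _ _)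
      ((act j).norm_op_apply_le _ _ _))
    have b2 := mul_le_mul_of_nonneg_right h1 (norm_nonneg ξ)
    have b3 := mul_le_mul hb' a1 (norm_nonneg _) zero_le_two
    linarith
  refine ⟨ζ, ?_, fun i => ?_⟩
  · rintro h
    rw [h, norm_zero, mul_zero] at a2
    exact h0 (norm_le_zero_iff.1 a2)
  · have e : (act (j + 1)).op (mg i) (u (xg i)) ζ - ζ =
        ∑ k, (Jk j (kk i k) (u (xg i) * u (ak k) - u (ak (kk i k)) * u (cγ i k).1)
          ((act j).op (cγ i k).2 1 ξ) + Jk j (kk i k) (u (ak (kk i k)))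
            ((act j).op (cγ i k).2 (u (cγ i k).1) ξ - ξ)) := by
      conv_lhs => rw [hζ, map_sum, ← (kk i).sum_comp fun k => Jk j k (u (ak k)) ξ]
      rw [← sum_sub_distrib]
      refine sum_congr rfl fun k _ => ?_
      rw [op_Jk]
      ext c
      simp [Jk, smul_sub]
    have b : ∀ k, ‖Jk j (kk i k) (u (xg i) * u (ak k) - u (ak (kk i k)) * u (cγ i k).1)
          ((act j).op (cγ i k).2 1 ξ) + Jk j (kk i k) (u (ak (kk i k)))
            ((act j).op (cγ i k).2 (u (cγ i k).1) ξ - ξ)‖ ≤ 5 * δ * ‖ξ‖ + 5 * 2 * (δ * ‖ξ‖) := by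
      intro k
      refine norm_add_le_of_le ((norm_Jk _ _ _ _).trans ?_) ((norm_Jk _ _ _ _).trans ?_)
      · gcongr
        · exact hm i k
        · exact ((act j).norm_op_apply_le _ _ _).trans
            (mul_le_of_le_one_left (norm_nonneg _) ContinuousLinearMap.norm_id_le)
      · gcongr
        · exact hb _
        · exact hξ i k
    have b2 := (congrArg norm e).le.trans (norm_sum_le_of_le _ fun k _ => b k)
    rw [sum_const, card_univ, ZMod.card, nsmul_eq_mul] at b2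
    have b3 := mul_le_mul_of_nonneg_left a2 hδ
    push_cast at b2
    linarith

end Crest.Agent.H3.KE
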