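import Crest.Agent.H3.KE.Alg

/-! Asymptotic representations: the spectral gap resets the error of almost invariant vectors. -/

namespace Crest.Agent.H3.KE

open Finset Filter Topology
open scoped InnerProductSpace

section hilbert
variable {K : Type} [NormedAddCommGroup K] [InnerProductSpace ℂ K] [CompleteSpace K]

/-- the quadratic form of an operator -/
noncomputable def qf (T : K →L[ℂ] K) (ξ : K) : ℝ := (⟪T ξ, ξ⟫_ℂ).re

omit [CompleteSpace K] in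
theorem qf_add (S T : K →L[ℂ] K) (ξ : K) : qf (S + T) ξ = qf S ξ + qf T ξ := by
  simp [qf, inner_add_left]

omit [CompleteSpace K] in
theorem qf_sub (S T : K →L[ℂ] K) (ξ : K) : qf (S - T) ξ = qf S ξ - qf T ξ := by
  simp [qf, inner_sub_left]

omit [CompleteSpace K] in
theorem qf_smul (r : ℝ) (T : K →L[ℂ] K) (ξ : K) : qf ((r : ℂ) • T) ξ = r * qf T ξ := by
  simp [qf, inner_smul_left]

omit [CompleteSpace K] in
theorem qf_sum {ι : Type} (s : Finset ι) (T : ι → K →L[ℂ] K) (ξ : K) :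
    qf (∑ i ∈ s, T i) ξ = ∑ i ∈ s, qf (T i) ξ := by
  simp [qf, sum_inner]

omit [CompleteSpace K] in
theorem qf_one (ξ : K) : qf 1 ξ = ‖ξ‖ ^ 2 := by
  simp [qf, inner_self_eq_norm_sq_to_K, ← Complex.ofReal_pow]

theorem qf_sq (T : K →L[ℂ] K) (ξ : K) : qf (star T * T) ξ = ‖T ξ‖ ^ 2 := by
  rw [qf, ContinuousLinearMap.mul_apply, ContinuousLinearMap.star_eq_adjoint,
    ContinuousLinearMap.adjoint_inner_left]
  simp [inner_self_eq_norm_sq_to_K, ← Complex.ofReal_pow]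

omit [CompleteSpace K] in
theorem abs_qf_le (T : K →L[ℂ] K) (ξ : K) : |qf T ξ| ≤ ‖T‖ * ‖ξ‖ ^ 2 := by
  refine (Complex.abs_re_le_norm _).trans ((norm_inner_le_norm _ _).trans ?_)
  rw [sq, ← mul_assoc]
  gcongr
  exact T.le_opNorm ξ

theorem Pos.qf_nonneg {T : K →L[ℂ] K} (h : Pos T) (ξ : K) : 0 ≤ qf T ξ :=
  h.induction (p := fun T => 0 ≤ qf T ξ) (by simp [qf]) (fun b => by rw [qf_sq]; positivity)
    fun a b ha hb => by rw [qf_add]; positivity

theorem le_iff_qf {T : K →L[ℂ] K} (hT : IsSelfAdjoint T) (r : ℝ) :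
    algebraMap ℝ (K →L[ℂ] K) r ≤ T ↔ ∀ ξ, r * ‖ξ‖ ^ 2 ≤ qf T ξ := by
  have e : algebraMap ℝ (K →L[ℂ] K) r = (r : ℂ) • 1 := by
    rw [Algebra.algebraMap_eq_smul_one]
    rfl
  rw [ContinuousLinearMap.le_def, ContinuousLinearMap.isPositive_def']
  have h1 : IsSelfAdjoint (T - algebraMap ℝ (K →L[ℂ] K) r) :=
    hT.sub (IsSelfAdjoint.algebraMap _ (IsSelfAdjoint.all r))
  refine (and_iff_right h1).trans (forall_congr' fun ξ => ?_)
  change 0 ≤ qf (T - algebraMap ℝ (K →L[ℂ] K) r) ξ ↔ _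
  rw [e, qf_sub, qf_smul, qf_one, sub_nonneg]

theorem gap_lemma {D : K →L[ℂ] K} (hD : IsSelfAdjoint D) {η β : ℝ} (hβ : 0 < β)
    (hη : η < β / 8) (h1 : ∀ ξ, -η * ‖ξ‖ ^ 2 ≤ qf (D * D - (1 / 4 : ℂ) • D) ξ)
    (h2 : ∀ ξ, β * ‖ξ‖ ^ 2 ≤ qf D ξ) (ξ : K) : 1 / 8 * ‖ξ‖ ^ 2 ≤ qf D ξ := by
  have e : D * D - (1 / 4 : ℂ) • D = cfc (fun x : ℝ => x * x - (1 / 4) * x) D := by
    rw [cfc_sub _ _ D, cfc_mul _ _ D, cfc_const_mul_id _ D, cfc_id' ℝ D]
    congr 1
    rw [show (1 / 4 : ℂ) = ((1 / 4 : ℝ) : ℂ) by push_cast; rfl]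
    rfl
  have a1 := (le_iff_qf (e ▸ cfc_predicate _ D) (-η)).2 h1
  rw [e, algebraMap_le_cfc_iff _ _ D] at a1
  have a2 := (algebraMap_le_iff_le_spectrum hD).1 ((le_iff_qf hD β).2 h2)
  refine (le_iff_qf hD _).1 ((algebraMap_le_iff_le_spectrum hD).2 fun x hx => ?_) ξ
  have b1 := a1 x hx
  have b2 := a2 x hx
  by_contra h
  push Not at h
  nlinarith [mul_nonneg (hβ.le.trans b2) (sub_nonneg.2 h.le)]

end hilbert

section quot
variable {I : Type} (K : I → Type) [∀ i, NormedAddCommGroup (K i)] [∀ i, InnerProductSpace ℂ (K i)]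
  [∀ i, CompleteSpace (K i)]

/-- bounded families of operators -/
def Bdd : StarSubalgebra ℂ (∀ i, K i →L[ℂ] K i) where
  carrier := {f | ∃ C, ∀ i, ‖f i‖ ≤ C}
  mul_mem' := by
    rintro f g ⟨C, hC⟩ ⟨C', hC'⟩
    exact ⟨C * C', fun i => (norm_mul_le _ _).trans
      (mul_le_mul (hC i) (hC' i) (norm_nonneg _) ((norm_nonneg _).trans (hC i)))⟩
  add_mem' := by
    rintro f g ⟨C, hC⟩ ⟨C', hC'⟩
    exact ⟨C + C', fun i => (norm_add_le _ _).trans (add_le_add (hC i) (hC' i))⟩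
  algebraMap_mem' r := ⟨‖r‖, fun i => by
    rw [Algebra.algebraMap_eq_smul_one, Pi.smul_apply, norm_smul]
    exact mul_le_of_le_one_right (norm_nonneg _) ContinuousLinearMap.norm_id_le⟩
  star_mem' := by
    rintro f ⟨C, hC⟩
    exact ⟨C, fun i => by simpa using hC i⟩

variable (F : Filter I)

/-- asymptotic equality -/
def con : RingCon (Bdd K) where
  r a b := Tendsto (fun i => ‖a.1 i - b.1 i‖) F (𝓝 0)
  iseqv := ⟨fun a => by simpa using tendsto_const_nhds, fun h => by simpa only [norm_sub_rev] using h, fun {a b c} h h' =>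
    squeeze_zero (fun _ => norm_nonneg _) (fun i => norm_sub_le_norm_sub_add_norm_sub _ (b.1 i) _)
      (by simpa using h.add h')⟩
  add' := fun {a b c d} h h' => squeeze_zero (fun _ => norm_nonneg _)
    (fun i => by
      change ‖a.1 i + c.1 i - (b.1 i + d.1 i)‖ ≤ ‖a.1 i - b.1 i‖ + ‖c.1 i - d.1 i‖
      rw [add_sub_add_comm]
      exact norm_add_le _ _) (by simpa using h.add h')
  mul' := fun {a b c d} h h' => by
    obtain ⟨C, hC⟩ := c.2
    obtain ⟨C', hC'⟩ := b.2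
    refine squeeze_zero (fun _ => norm_nonneg _) (g := fun i => ‖a.1 i - b.1 i‖ * C +
      C' * ‖c.1 i - d.1 i‖) (fun i => ?_) (by simpa using (h.mul_const C).add (h'.const_mul C'))
    change ‖a.1 i * c.1 i - b.1 i * d.1 i‖ ≤ _
    rw [show a.1 i * c.1 i - b.1 i * d.1 i = (a.1 i - b.1 i) * c.1 i + b.1 i * (c.1 i - d.1 i) by
      noncomm_ring]
    refine (norm_add_le _ _).trans (add_le_add ((norm_mul_le _ _).trans ?_)
      ((norm_mul_le _ _).trans ?_))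
    · gcongr
      exact hC i
    · gcongr
      exact hC' i

/-- the asymptotic quotient -/
abbrev Qt : Type := (con K F).Quotient

noncomputable instance : Star (Qt K F) :=
  ⟨Quotient.map' star fun a b (h : Tendsto _ F _) => by
    change Tendsto (fun i => ‖star (a.1 i) - star (b.1 i)‖) F (𝓝 0)
    simpa only [← star_sub, norm_star] using h⟩

theorem star_mk (a : Bdd K) : star (a : Qt K F) = ((star a : Bdd K) : Qt K F) := rfl

noncomputable instance : StarRing (Qt K F) where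
  star_involutive a := Quotient.inductionOn' a fun a => by
    change star (star (a : Qt K F)) = (a : Qt K F)
    rw [star_mk, star_mk, star_star]
  star_mul a b := Quotient.inductionOn₂' a b fun a b => by
    change star ((a : Qt K F) * b) = star (b : Qt K F) * star (a : Qt K F)
    rw [← RingCon.coe_mul, star_mk, star_mk, star_mk, star_mul, RingCon.coe_mul]
  star_add a b := Quotient.inductionOn₂' a b fun a b => by
    change star ((a : Qt K F) + b) = star (a : Qt K F) + star (b : Qt K F)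
    rw [← RingCon.coe_add, star_mk, star_mk, star_mk, star_add, RingCon.coe_add]

instance : StarModule ℂ (Qt K F) where
  star_smul r a := Quotient.inductionOn' a fun a => by
    change star (r • (a : Qt K F)) = star r • star (a : Qt K F)
    rw [← RingCon.coe_smul, star_mk, star_mk, star_smul, RingCon.coe_smul]

variable {K F}

theorem transfer {a : Bdd K} (h : Pos (a : Qt K F)) {η : ℝ} (hη : 0 < η) :
    ∀ᶠ i in F, ∀ ξ, -η * ‖ξ‖ ^ 2 ≤ qf (a.1 i) ξ := by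
  have near : ∀ a b : Bdd K, (a : Qt K F) = b → ∀ η > 0, ∀ᶠ i in F, ∀ ξ,
      qf (b.1 i) ξ - η * ‖ξ‖ ^ 2 ≤ qf (a.1 i) ξ := by
    intro a b hab η hη
    have : Tendsto (fun i => ‖a.1 i - b.1 i‖) F (𝓝 0) := (RingCon.eq _).1 hab
    filter_upwards [this.eventually (gt_mem_nhds hη)] with i hi ξ
    have h1 := (abs_le.1 (abs_qf_le (a.1 i - b.1 i) ξ)).1
    rw [qf_sub] at h1
    have : ‖a.1 i - b.1 i‖ * ‖ξ‖ ^ 2 ≤ η * ‖ξ‖ ^ 2 := by gcongr
    linarith
  refine h.induction (p := fun r => ∀ a : Bdd K, (a : Qt K F) = r → ∀ η > 0, ∀ᶠ i in F, ∀ ξ,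
    -η * ‖ξ‖ ^ 2 ≤ qf (a.1 i) ξ) ?_ ?_ ?_ a rfl η hη
  · intro a ha η hη
    filter_upwards [near a 0 ha η hη] with i hi ξ
    simpa [qf] using hi ξ
  · intro b a ha η hη
    obtain ⟨b, rfl⟩ := RingCon.mk'_surjective _ b
    filter_upwards [near a (star b * b) ha η hη] with i hi ξ
    have h1 := hi ξ
    have h2 : qf ((star b * b).1 i) ξ = ‖b.1 i ξ‖ ^ 2 := qf_sq _ _
    have h3 : 0 ≤ ‖b.1 i ξ‖ ^ 2 := by positivity
    linarith
  · intro r s hr hs a ha η hη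
    obtain ⟨b, rfl⟩ := RingCon.mk'_surjective _ r
    filter_upwards [hr b rfl (η / 2) (by positivity), hs (a - b) (by
      rw [RingCon.coe_sub, ha]; exact add_sub_cancel_left _ _) (η / 2) (by positivity)]
      with i h1 h2 ξ
    have h3 : qf ((a - b).1 i) ξ = qf (a.1 i) ξ - qf (b.1 i) ξ := qf_sub _ _ _
    linarith [h1 ξ, h2 ξ]

theorem reset {G : Type} [Group G] {x : Fin 4 → G} (hx : Gen x) (U : ∀ i, G → K i →L[ℂ] K i)
    (hb : ∀ g, ∃ C, ∀ i, ‖U i g‖ ≤ C)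
    (hm : ∀ g h, Tendsto (fun i => ‖U i (g * h) - U i g * U i h‖) F (𝓝 0))
    (h1 : Tendsto (fun i => ‖U i 1 - 1‖) F (𝓝 0))
    (hs : ∀ g, Tendsto (fun i => ‖star (U i g) - U i g⁻¹‖) F (𝓝 0)) :
    ∃ δ₀ > 0, ∀ δ > 0, ∀ S : Finset G, (∀ g ∈ S, g ∈ Subgroup.closure (Set.range x)) →
      ∀ᶠ i in F, (∃ ξ, ξ ≠ 0 ∧ ∀ k, ‖U i (x k) ξ - ξ‖ ≤ δ₀ * ‖ξ‖) →
        ∃ ξ, ξ ≠ 0 ∧ ∀ g ∈ S, ‖U i g ξ - ξ‖ ≤ δ * ‖ξ‖ := by
  let V : G → Bdd K := fun g => ⟨fun i => U i g, hb g⟩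
  let W : G →* Qt K F :=
    { toFun := fun g => (V g : Qt K F)
      map_one' := (RingCon.eq _).2 h1
      map_mul' := fun g h => (RingCon.eq _).2 (hm g h) }
  have hW : ∀ g, star (W g) = W g⁻¹ := fun g => (RingCon.eq _).2 (hs g)
  obtain ⟨C, hC, hDL⟩ := Dl_le hx
  obtain ⟨d, hd⟩ := RingCon.mk'_surjective _ (Dl W x)
  change (d : Qt K F) = _ at hd
  let D : Bdd K := (1 / 2 : ℂ) • (d + star d)
  have hD : (D : Qt K F) = Dl W x := by
    rw [RingCon.coe_smul, RingCon.coe_add, ← star_mk, hd, star_Dl hW hx]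
    module
  have hDs : ∀ i, IsSelfAdjoint (D.1 i) := fun i => by
    change star ((1 / 2 : ℂ) • (d.1 i + star (d.1 i))) = (1 / 2 : ℂ) • (d.1 i + star (d.1 i))
    simp [add_comm]
  clear_value D
  let N : G → Bdd K := fun g => star (V g - 1) * (V g - 1)
  have hN : ∀ g, (N g : Qt K F) = Nn W g := fun g => rfl
  have qN : ∀ g i ξ, qf ((N g).1 i) ξ = ‖U i g ξ - ξ‖ ^ 2 := fun g i ξ => qf_sq _ _
  let L : Bdd K := ∑ k, N (x k)
  have hL : (L : Qt K F) = Ll W x := map_sum (RingCon.mk' (con K F)) _ _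
  have qL : ∀ i ξ, qf (L.1 i) ξ = ∑ k, ‖U i (x k) ξ - ξ‖ ^ 2 := fun i ξ => by
    have : L.1 i = ∑ k, (N (x k)).1 i := by simp [L]
    rw [this, qf_sum]
    simp only [qN]
  refine ⟨√(1 / (128 * C)), by positivity, fun δ hδ S hS => ?_⟩
  choose! c hc0 hc using fun g (hg : g ∈ S) => Nn_le x (hS g hg)
  set c₀ := ∑ g ∈ S, c g + 1 with hc₀
  have hc1 : ∀ g ∈ S, c g ≤ c₀ := fun g hg => by
    have := single_le_sum (f := c) hc0 hg
    linarith
  have hc2 : 0 < c₀ := by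
    have := sum_nonneg hc0
    linarith
  set β := δ ^ 2 / (8 * c₀) with hβ
  have hβ0 : 0 < β := by positivity
  have hβ2 : 8 * c₀ * β ≤ δ ^ 2 := by
    rw [hβ, mul_div_cancel₀ _ (by positivity)]
  have e1 := transfer (F := F) (a := D * D - (1 / 4 : ℂ) • D) (by
    rw [RingCon.coe_sub, RingCon.coe_mul, RingCon.coe_smul, hD]; exact gap hW hx)
    (η := β / 16) (by positivity)
  have e2 := transfer (F := F) (a := (C : ℂ) • L - D) (by
    rw [RingCon.coe_sub, RingCon.coe_smul, hD, hL]; exact hDL _ W hW) (η := 1 / 32) (by positivity)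
  have e3 : ∀ᶠ i in F, ∀ g ∈ S, ∀ ξ, -(δ ^ 2 / 2) * ‖ξ‖ ^ 2 ≤
      qf ((((4 * c g : ℝ) : ℂ) • D - N g).1 i) ξ := by
    refine (eventually_all_finset S).2 fun g hg => transfer ?_ (by positivity)
    rw [RingCon.coe_sub, RingCon.coe_smul, hD, hN]
    refine (((Ll_le hW hx).smul (hc0 g hg)).add (hc g hg _ W hW)).of_eq ?_
    push_cast
    module
  filter_upwards [e1, e2, e3] with i f1 f2 f3
  rintro ⟨ξ, hξ, hk⟩
  have hn : 0 < ‖ξ‖ ^ 2 := by positivity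
  have g1 : qf (D.1 i) ξ < 1 / 8 * ‖ξ‖ ^ 2 := by
    have a := f2 ξ
    have b : qf (((C : ℂ) • L - D).1 i) ξ = C * qf (L.1 i) ξ - qf (D.1 i) ξ := by
      rw [← qf_smul, ← qf_sub]
      rfl
    have c : qf (L.1 i) ξ ≤ 4 * (1 / (128 * C) * ‖ξ‖ ^ 2) := by
      rw [qL]
      refine (sum_le_card_nsmul _ _ (1 / (128 * C) * ‖ξ‖ ^ 2) fun k _ => ?_).trans (by simp)
      rw [← Real.sq_sqrt (show 0 ≤ 1 / (128 * C) by positivity), ← mul_pow]
      gcongr
      exact hk k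
    have d : C * (4 * (1 / (128 * C) * ‖ξ‖ ^ 2)) = 1 / 32 * ‖ξ‖ ^ 2 := by field_simp; ring
    have := mul_le_mul_of_nonneg_left c hC.le
    linarith
  have g2 : ∃ ζ, qf (D.1 i) ζ < β * ‖ζ‖ ^ 2 := by
    by_contra hno
    push Not at hno
    exact absurd (gap_lemma (hDs i) hβ0 (by linarith) f1 hno ξ) (not_le.2 g1)
  obtain ⟨ζ, hζ⟩ := g2
  refine ⟨ζ, ?_, fun g hg => ?_⟩
  · rintro rfl
    simp [qf] at hζ
  · have a := f3 g hg ζ
    have b : qf ((((4 * c g : ℝ) : ℂ) • D - N g).1 i) ζ =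
        4 * c g * qf (D.1 i) ζ - ‖U i g ζ - ζ‖ ^ 2 := by
      rw [← qf_smul, ← qN, ← qf_sub]
      rfl
    refine (pow_le_pow_iff_left₀ (by positivity) (by positivity) two_ne_zero).1 ?_
    have c1 : 4 * c g * qf (D.1 i) ζ ≤ 4 * c g * (β * ‖ζ‖ ^ 2) :=
      mul_le_mul_of_nonneg_left hζ.le (by have := hc0 g hg; positivity)
    have c2 : 4 * c g * (β * ‖ζ‖ ^ 2) ≤ 4 * c₀ * (β * ‖ζ‖ ^ 2) := by
      have := hc1 g hg
      gcongr
    have c3 : 8 * c₀ * β * ‖ζ‖ ^ 2 ≤ δ ^ 2 * ‖ζ‖ ^ 2 := by gcongr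
    rw [mul_pow]
    linarith

end quot

end Crest.Agent.H3.KE
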